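import Vale.Agent.P144.Geometry

set_option linter.unusedSectionVars false
set_option linter.unusedSimpArgs false

namespace Vale.Agent.P144

theorem disp_bounds {d : ℤ × ℤ} (hd : d ∈ disp) :
    0 ≤ d.1 + d.2 ∧ d.1 + d.2 ≤ 2 ∧ |d.1 - d.2| ≤ 2 := by
  revert d; decide

theorem fld_congr {J lam β : ℝ} {Λ : Finset (ℤ × ℤ)} {τ τ' : Config} {x : Λ}
    (h : ∀ d ∈ disp, (((x : ℤ × ℤ) + d) ∉ Λ → τ (x + d) = τ' (x + d)) ∧
      (((x : ℤ × ℤ) - d) ∉ Λ → τ (x - d) = τ' (x - d))) :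
    fld J lam β Λ τ x = fld J lam β Λ τ' x := by
  unfold fld
  refine Finset.sum_congr rfl fun d hd => ?_
  have h1 : out Λ τ (x + d) = out Λ τ' (x + d) := by
    unfold out; split_ifs with h'
    · rfl
    · rw [(h d hd).1 h']
  have h2 : out Λ τ (x - d) = out Λ τ' (x - d) := by
    unfold out; split_ifs with h'
    · rfl
    · rw [(h d hd).2 h']
  rw [h1, h2]

section
variable {a : ℝ} {J lam β : ℝ}

/-- (F3) deep sites feel the same field. -/
theorem fld_deep {x : sites tri a} (hx : (x : ℤ × ℤ).1 + (x : ℤ × ℤ).2 + 3 ≤ ⌈1 / a⌉) :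
    fld J lam β (sites tri a) (tauA a) x = fld J lam β (sites tri a) (fun _ => true) x := by
  apply fld_congr
  intro d hd
  obtain ⟨b1, b2, _⟩ := disp_bounds hd
  constructor
  · intro _
    apply tauA_eq_true
    simp only [Prod.fst_add, Prod.snd_add]; omega
  · intro _
    apply tauA_eq_true
    simp only [Prod.fst_sub, Prod.snd_sub]; omega

theorem tauA_outside_window {y : ℤ × ℤ} (h : y.1 + y.2 ≤ ⌈1 / a⌉) (hw : ⌈1 / a⌉ < 2 * |y.1 - y.2|) :
    tauA a y = true := by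
  unfold tauA
  simp only [Bool.not_eq_true', decide_eq_false_iff_not]
  rintro ⟨_, ⟨h1, h2⟩ | ⟨h1, _⟩⟩ <;> omega

theorem tauB_outside_window {y : ℤ × ℤ} (hw : ⌈1 / a⌉ < 2 * |y.1 - y.2|) :
    tauB a y = true := by
  unfold tauB
  simp only [Bool.not_eq_true', decide_eq_false_iff_not]
  rintro ⟨_, h1, h2⟩; omega

/-- (F1) -/
theorem window_of_lt {x : sites tri a} (hx : (x : ℤ × ℤ).1 + (x : ℤ × ℤ).2 + 2 = ⌈1 / a⌉)
    (h : fld J lam β (sites tri a) (tauA a) x < fld J lam β (sites tri a) (fun _ => true) x) :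
    2 * |(x : ℤ × ℤ).1 - (x : ℤ × ℤ).2| ≤ ⌈1 / a⌉ + 4 := by
  by_contra hc
  push Not at hc
  apply h.ne
  apply fld_congr
  intro d hd
  obtain ⟨b1, b2, b3⟩ := disp_bounds hd
  rw [abs_le] at b3
  constructor
  · intro _
    apply tauA_outside_window
    · simp only [Prod.fst_add, Prod.snd_add]; omega
    · simp only [Prod.fst_add, Prod.snd_add]
      rcases abs_cases ((x : ℤ × ℤ).1 - (x : ℤ × ℤ).2) with ⟨h1, h2⟩ | ⟨h1, h2⟩ <;>
      rcases abs_cases ((x : ℤ × ℤ).1 + d.1 - ((x : ℤ × ℤ).2 + d.2)) with ⟨h3, h4⟩ | ⟨h3, h4⟩ <;>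
      omega
  · intro _
    apply tauA_eq_true
    simp only [Prod.fst_sub, Prod.snd_sub]
    by_contra h5
    have : d.1 + d.2 ≤ 0 := by omega
    omega

/-- (F2) -/
theorem window_of_lt' {x : sites tri a}
    (h : fld J lam β (sites tri a) (tauB a) x < fld J lam β (sites tri a) (fun _ => true) x) :
    2 * |(x : ℤ × ℤ).1 - (x : ℤ × ℤ).2| ≤ ⌈1 / a⌉ + 4 := by
  by_contra hc
  push Not at hc
  apply h.ne
  apply fld_congr
  intro d hd
  obtain ⟨b1, b2, b3⟩ := disp_bounds hd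
  rw [abs_le] at b3
  constructor
  · intro _
    apply tauB_outside_window
    simp only [Prod.fst_add, Prod.snd_add]
    rcases abs_cases ((x : ℤ × ℤ).1 - (x : ℤ × ℤ).2) with ⟨h1, h2⟩ | ⟨h1, h2⟩ <;>
    rcases abs_cases ((x : ℤ × ℤ).1 + d.1 - ((x : ℤ × ℤ).2 + d.2)) with ⟨h3, h4⟩ | ⟨h3, h4⟩ <;>
    omega
  · intro _
    apply tauB_outside_window
    simp only [Prod.fst_sub, Prod.snd_sub]
    rcases abs_cases ((x : ℤ × ℤ).1 - (x : ℤ × ℤ).2) with ⟨h1, h2⟩ | ⟨h1, h2⟩ <;>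
    rcases abs_cases ((x : ℤ × ℤ).1 - d.1 - ((x : ℤ × ℤ).2 - d.2)) with ⟨h3, h4⟩ | ⟨h3, h4⟩ <;>
    omega

theorem out_diff {y : ℤ × ℤ} (ha : 0 < a) (ho : Odd y.1) (hs : y.1 + y.2 = ⌈1 / a⌉ + 1)
    (hw : 2 * |y.1 - y.2| ≤ ⌈1 / a⌉ + 12) :
    out (sites tri a) (tauB a) y - out (sites tri a) (tauA a) y = 2 := by
  have h1 : tauA a y = false := by
    unfold tauA
    simp only [Bool.not_eq_false', decide_eq_true_eq]
    exact ⟨ho, Or.inr ⟨hs, hw⟩⟩
  have h2 : tauB a y = true := by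
    unfold tauB
    simp only [Bool.not_eq_true', decide_eq_false_iff_not]
    rintro ⟨_, h3, _⟩; omega
  unfold out
  rw [if_neg (not_mem_of_le ha (by omega)), if_neg (not_mem_of_le ha (by omega)), h1, h2]
  norm_num [spin]

/-- near the window the second layer contributes at least `4 β λ` on the last interior layer. -/
theorem fld_gap (ha : 0 < a) (hJ : 0 ≤ J) (hl : 0 ≤ lam) (hβ : 0 ≤ β) {x : sites tri a}
    (hx : (x : ℤ × ℤ).1 + (x : ℤ × ℤ).2 + 1 = ⌈1 / a⌉)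
    (hw : 2 * |(x : ℤ × ℤ).1 - (x : ℤ × ℤ).2| ≤ ⌈1 / a⌉ + 6) :
    4 * (β * lam) ≤ fld J lam β (sites tri a) (tauB a) x - fld J lam β (sites tri a) (tauA a) x := by
  unfold fld
  rw [sum_wd, sum_wd]
  have mono := fun y => out_mono (Λ := sites tri a) (tauA_le_tauB a) y
  have hβJ := mul_nonneg hβ hJ
  have hβl := mul_nonneg hβ hl
  have g1 := mono ((x : ℤ × ℤ) + (1, 0))
  have g2 := mono ((x : ℤ × ℤ) - (1, 0))
  have g3 := mono ((x : ℤ × ℤ) + (0, 1))
  have g4 := mono ((x : ℤ × ℤ) - (0, 1))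
  have g5 := mono ((x : ℤ × ℤ) + (1, 1))
  have g6 := mono ((x : ℤ × ℤ) - (1, 1))
  have g7 := mono ((x : ℤ × ℤ) + (1, -1))
  have g8 := mono ((x : ℤ × ℤ) - (1, -1))
  have g9 := mono ((x : ℤ × ℤ) + (2, 0))
  have g10 := mono ((x : ℤ × ℤ) - (2, 0))
  have g11 := mono ((x : ℤ × ℤ) + (0, 2))
  have g12 := mono ((x : ℤ × ℤ) - (0, 2))
  set A := out (sites tri a) (tauA a)
  set B := out (sites tri a) (tauB a)
  have key : 4 ≤ 2 * (B ((x : ℤ × ℤ) + (1, 1)) - A ((x : ℤ × ℤ) + (1, 1))) +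
      (B ((x : ℤ × ℤ) + (2, 0)) - A ((x : ℤ × ℤ) + (2, 0))) +
      (B ((x : ℤ × ℤ) + (0, 2)) - A ((x : ℤ × ℤ) + (0, 2))) := by
    have hw' : -(⌈1 / a⌉ + 6) ≤ 2 * ((x : ℤ × ℤ).1 - (x : ℤ × ℤ).2) ∧
        2 * ((x : ℤ × ℤ).1 - (x : ℤ × ℤ).2) ≤ ⌈1 / a⌉ + 6 := by
      rcases abs_cases ((x : ℤ × ℤ).1 - (x : ℤ × ℤ).2) with ⟨h1, h2⟩ | ⟨h1, h2⟩ <;> omega
    rcases Int.even_or_odd (x : ℤ × ℤ).1 with he | ho
    · have := out_diff ha (y := (x : ℤ × ℤ) + (1, 1)) (by simpa using he.add_one)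
        (by simp only [Prod.fst_add, Prod.snd_add]; omega)
        (by
          simp only [Prod.fst_add, Prod.snd_add]
          rcases abs_cases ((x : ℤ × ℤ).1 + 1 - ((x : ℤ × ℤ).2 + 1)) with ⟨h1, h2⟩ | ⟨h1, h2⟩ <;>
          omega)
      linarith
    · have t1 := out_diff ha (y := (x : ℤ × ℤ) + (2, 0))
        (by simpa using ho.add_even (by decide : Even (2:ℤ)))
        (by simp only [Prod.fst_add, Prod.snd_add]; omega)
        (by
          simp only [Prod.fst_add, Prod.snd_add]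
          rcases abs_cases ((x : ℤ × ℤ).1 + 2 - ((x : ℤ × ℤ).2 + 0)) with ⟨h1, h2⟩ | ⟨h1, h2⟩ <;>
          omega)
      have t2 := out_diff ha (y := (x : ℤ × ℤ) + (0, 2)) (by simpa using ho)
        (by simp only [Prod.fst_add, Prod.snd_add]; omega)
        (by
          simp only [Prod.fst_add, Prod.snd_add]
          rcases abs_cases ((x : ℤ × ℤ).1 + 0 - ((x : ℤ × ℤ).2 + 2)) with ⟨h1, h2⟩ | ⟨h1, h2⟩ <;>
          omega)
      linarith
  have r1 : 0 ≤ β * J * ((B ((x : ℤ × ℤ) + (1, 0)) - A ((x : ℤ × ℤ) + (1, 0))) + (B ((x : ℤ × ℤ) - (1, 0)) - A ((x : ℤ × ℤ) - (1, 0))) +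
      (B ((x : ℤ × ℤ) + (0, 1)) - A ((x : ℤ × ℤ) + (0, 1))) + (B ((x : ℤ × ℤ) - (0, 1)) - A ((x : ℤ × ℤ) - (0, 1)))) :=
    mul_nonneg hβJ (by linarith)
  have r2 : 0 ≤ β * lam * (2 * (B ((x : ℤ × ℤ) - (1, 1)) - A ((x : ℤ × ℤ) - (1, 1))) +
      2 * (B ((x : ℤ × ℤ) + (1, -1)) - A ((x : ℤ × ℤ) + (1, -1))) + 2 * (B ((x : ℤ × ℤ) - (1, -1)) - A ((x : ℤ × ℤ) - (1, -1))) +
      (B ((x : ℤ × ℤ) - (2, 0)) - A ((x : ℤ × ℤ) - (2, 0))) + (B ((x : ℤ × ℤ) - (0, 2)) - A ((x : ℤ × ℤ) - (0, 2)))) :=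
    mul_nonneg hβl (by linarith)
  have r3 := mul_le_mul_of_nonneg_left key hβl
  nlinarith [r1, r2, r3]

end

theorem smem_aux {a : ℝ} (ha : 0 < a) (hn : 8 ≤ ⌈1 / a⌉) {u : ℤ × ℤ}
    (h1 : u.1 + u.2 + 2 = ⌈1 / a⌉) (hw : 2 * |u.1 - u.2| ≤ ⌈1 / a⌉ + 4) :
    u + (1, 0) ∈ sites tri a := by
  obtain ⟨i, j⟩ := u
  simp only at h1 hw
  have hlt : (((i + 1 + j : ℤ) : ℤ) : ℝ) < 1 / a := by
    rw [← Int.lt_ceil]; omega
  rw [lt_div_iff₀ ha] at hlt
  have n1 : 0 ≤ i := by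
    rcases abs_cases (i - j) with ⟨h3, h4⟩ | ⟨h3, h4⟩ <;> omega
  have n2 : 0 ≤ j := by
    rcases abs_cases (i - j) with ⟨h3, h4⟩ | ⟨h3, h4⟩ <;> omega
  have m1 : (0:ℝ) ≤ i := by exact_mod_cast n1
  have m2 : (0:ℝ) ≤ j := by exact_mod_cast n2
  have p1 : 0 ≤ a * i := mul_nonneg ha.le m1
  have p2 : 0 ≤ a * j := mul_nonneg ha.le m2
  refine (mem_sites_tri ha _).2 ?_
  simp only [Prod.mk_add_mk, add_zero]
  push_cast at hlt ⊢
  refine ⟨by linarith, by linarith, by linarith⟩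

theorem swin_aux {n i j : ℤ} (hw : 2 * |i - j| ≤ n + 4) : 2 * |i + 1 - (j + 0)| ≤ n + 6 := by
  rcases abs_cases (i - j) with ⟨h3, h4⟩ | ⟨h3, h4⟩ <;>
  rcases abs_cases (i + 1 - (j + 0)) with ⟨h5, h6⟩ | ⟨h5, h6⟩ <;>
  omega

theorem cplK_step {J lam β : ℝ} (hJ : 0 ≤ J) (hl : 0 ≤ lam) (hβ : 0 ≤ β) {Λ : Finset (ℤ × ℤ)}
    {u v : Λ} (h : (v : ℤ × ℤ) = (u : ℤ × ℤ) + (1, 0)) :
    β * J ≤ cplK J lam β Λ v u + cplK J lam β Λ u v := by
  have h1 : β * J ≤ cplK J lam β Λ u v := by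
    unfold cplK
    have hmem : ((1, 0) : ℤ × ℤ) ∈ disp := by decide
    have := Finset.single_le_sum (s := disp)
      (f := fun d => if (v : ℤ × ℤ) = u + d then wd J lam β d else 0)
      (fun d _ => by
        split_ifs
        · exact wd_nonneg hJ hl hβ d
        · exact le_rfl) hmem
    rw [if_pos h, wd_10] at this
    exact this
  have := cplK_nonneg hJ hl hβ Λ v u
  linarith

section Abstract

variable {ι : Type} [Fintype ι] [DecidableEq ι]

theorem compare_abs {K : ι → ι → ℝ} (K0 : ∀ i j, 0 ≤ K i j) (x : ι) {hA hB hP : ι → ℝ}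
    {Q D κ e : ℝ} (hD : 0 < D) (hκ : 0 < κ) (he0 : 0 < e) (he1 : e ≤ 1 / 2)
    (he2 : e * Q ≤ D)
    (he3 : 2 * (e * Q) ≤
      Real.log (1 + Real.sinh D * Real.sinh (2 * κ) / Real.cosh (Q + D + Q) ^ 2))
    (A0 : ∀ i, 0 ≤ hA i) (AB : ∀ i, hA i ≤ hB i) (BP : ∀ i, hB i ≤ hP i) (PQ : ∀ i, hP i ≤ Q)
    (hrow : ∀ i, ∑ j, (K i j + K j i) ≤ Q)
    (U : Finset ι) (s : ι → ι) (hinj : Set.InjOn s U) (hU : ∀ u ∈ U, s u ∉ U)
    (hx : ∀ u ∈ U, x ≠ s u) (Jle : ∀ u ∈ U, κ ≤ K (s u) u + K u (s u))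
    (hgap : ∀ u ∈ U, 2 * D ≤ hB (s u) - hA (s u))
    (hrest : ∀ i, i ∉ U → (2 * D ≤ hB i - hA i ∨ hB i = hP i ∨ hA i = hP i)) :
    (1 - e) * mag K hA x + e * mag K hP x ≤ mag K hB x := by
  have AP : ∀ i, hA i ≤ hP i := fun i => (AB i).trans (BP i)
  have hbound : ∀ i, e * (hP i - hA i) ≤ D := by
    intro i
    have h1 := A0 i
    have h2 := PQ i
    have : e * (hP i - hA i) ≤ e * Q := mul_le_mul_of_nonneg_left (by linarith) he0.le
    linarith
  refine mag_compare (K := K) K0 x A0 AP U s (κ := κ) (D := D) (B := Q + D + Q) (e := e) he0.le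
    (by linarith) hκ.le hD.le hinj hU hx Jle ?_ ?_ ?_
  · intro u hu
    have a1 := A0 (s u)
    have a2 := AP (s u)
    have a3 := PQ (s u)
    have h2 : 0 ≤ hA (s u) + e * (hP (s u) - hA (s u)) :=
      add_nonneg a1 (mul_nonneg he0.le (by linarith))
    have h3 : hA (s u) + e * (hP (s u) - hA (s u)) ≤ Q := by
      have : e * (hP (s u) - hA (s u)) ≤ 1 * (hP (s u) - hA (s u)) :=
        mul_le_mul_of_nonneg_right (by linarith) (by linarith)
      linarith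
    rw [abs_of_nonneg h2]
    have := hrow (s u)
    linarith
  · intro u hu
    have h1 : e * (hP u - hA u) ≤ e * Q := by
      have a1 := A0 u
      have a2 := PQ u
      exact mul_le_mul_of_nonneg_left (by linarith) he0.le
    have hpos : 0 < 1 + Real.sinh D * Real.sinh (2 * κ) / Real.cosh (Q + D + Q) ^ 2 := by
      have h1 : 0 < Real.sinh D := Real.sinh_pos_iff.2 hD
      have h2 : 0 < Real.sinh (2 * κ) := Real.sinh_pos_iff.2 (by linarith)
      have h3 := Real.cosh_pos (Q + D + Q)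
      positivity
    rw [← Real.exp_log hpos]
    exact Real.exp_le_exp.2 (by linarith)
  · intro i
    by_cases hi : i ∈ U.image s
    · obtain ⟨u, hu, rfl⟩ := Finset.mem_image.1 hi
      rw [if_neg (hU u hu), if_pos hi]
      have h1 := hgap u hu
      have h2 := hbound (s u)
      linarith
    · rw [if_neg hi, add_zero]
      by_cases hiU : i ∈ U
      · rw [if_pos hiU, add_zero]; exact AB i
      · rw [if_neg hiU]
        have h2 := hbound i
        have h3 := AB i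
        have h4 := BP i
        have h5 := A0 i
        rcases hrest i hiU with h | h | h
        · linarith
        · have : e * (hP i - hA i) ≤ 1 * (hP i - hA i) :=
            mul_le_mul_of_nonneg_right (by linarith) (by linarith)
          linarith
        · rw [← h]; linarith

end Abstract

/-- The sites of the second last interior layer where the exterior layer is felt. -/
noncomputable def Uset (J lam β a : ℝ) : Finset (sites tri a) :=
  open Classical in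
  Finset.univ.filter fun u =>
    (u : ℤ × ℤ).1 + (u : ℤ × ℤ).2 + 2 = ⌈1 / a⌉ ∧
      fld J lam β (sites tri a) (tauA a) u < fld J lam β (sites tri a) (fun _ => true) u

theorem mem_Uset {J lam β a : ℝ} (u : sites tri a) : u ∈ Uset J lam β a ↔
    ((u : ℤ × ℤ).1 + (u : ℤ × ℤ).2 + 2 = ⌈1 / a⌉ ∧
      fld J lam β (sites tri a) (tauA a) u < fld J lam β (sites tri a) (fun _ => true) u) := by
  unfold Uset
  simp

open Classical in
/-- The neighbour map. -/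
noncomputable def nbr (a : ℝ) (u : sites tri a) : sites tri a :=
  if h : (u : ℤ × ℤ) + (1, 0) ∈ sites tri a then ⟨(u : ℤ × ℤ) + (1, 0), h⟩ else u

section
variable {a : ℝ} {J lam β : ℝ}

theorem nbr_val (ha : 0 < a) (hn : 8 ≤ ⌈1 / a⌉) {u : sites tri a} (hu : u ∈ Uset J lam β a) :
    (nbr a u : ℤ × ℤ) = (u : ℤ × ℤ) + (1, 0) := by
  obtain ⟨h1, h2⟩ := (mem_Uset u).1 hu
  have h := smem_aux ha hn h1 (window_of_lt h1 h2)
  unfold nbr
  rw [dif_pos h]

theorem nbr_layer (ha : 0 < a) (hn : 8 ≤ ⌈1 / a⌉) {u : sites tri a} (hu : u ∈ Uset J lam β a) :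
    (nbr a u : ℤ × ℤ).1 + (nbr a u : ℤ × ℤ).2 + 1 = ⌈1 / a⌉ := by
  rw [nbr_val ha hn hu]
  have := ((mem_Uset u).1 hu).1
  simp only [Prod.fst_add, Prod.snd_add]; omega

theorem nbr_win (ha : 0 < a) (hn : 8 ≤ ⌈1 / a⌉) {u : sites tri a} (hu : u ∈ Uset J lam β a) :
    2 * |(nbr a u : ℤ × ℤ).1 - (nbr a u : ℤ × ℤ).2| ≤ ⌈1 / a⌉ + 6 := by
  rw [nbr_val ha hn hu]
  obtain ⟨h1, h2⟩ := (mem_Uset u).1 hu
  exact swin_aux (window_of_lt h1 h2)

theorem rest_cases (ha : 0 < a) (hJ : 0 ≤ J) (hl : 0 ≤ lam) (hβ : 0 ≤ β) (i : sites tri a)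
    (hi : i ∉ Uset J lam β a) :
    4 * (β * lam) ≤ fld J lam β (sites tri a) (tauB a) i - fld J lam β (sites tri a) (tauA a) i ∨
    fld J lam β (sites tri a) (tauB a) i = fld J lam β (sites tri a) (fun _ => true) i ∨
    fld J lam β (sites tri a) (tauA a) i = fld J lam β (sites tri a) (fun _ => true) i := by
  have hlt := sum_lt_of_mem ha i.2
  have BP : fld J lam β (sites tri a) (tauB a) i ≤ fld J lam β (sites tri a) (fun _ => true) i :=
    fld_mono hJ hl hβ (fun y => le_top) i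
  have AP : fld J lam β (sites tri a) (tauA a) i ≤ fld J lam β (sites tri a) (fun _ => true) i :=
    fld_mono hJ hl hβ (fun y => le_top) i
  by_cases hl1 : (i : ℤ × ℤ).1 + (i : ℤ × ℤ).2 + 1 = ⌈1 / a⌉
  · rcases BP.lt_or_eq with h | h
    · left
      have hw := window_of_lt' h
      exact fld_gap ha hJ hl hβ hl1 (by omega)
    · exact Or.inr (Or.inl h)
  · by_cases hl2 : (i : ℤ × ℤ).1 + (i : ℤ × ℤ).2 + 2 = ⌈1 / a⌉
    · rcases AP.lt_or_eq with h | h
      · exact absurd ((mem_Uset i).2 ⟨hl2, h⟩) hi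
      · exact Or.inr (Or.inr h)
    · exact Or.inr (Or.inr (fld_deep (by omega)))

end

/-- The admissible fraction. -/
theorem exists_frac {Q D κ : ℝ} (hQ : 0 < Q) (hD : 0 < D) (hκ : 0 < κ) :
    ∃ e : ℝ, 0 < e ∧ e ≤ 1 / 2 ∧ e * Q ≤ D ∧ 2 * (e * Q) ≤
      Real.log (1 + Real.sinh D * Real.sinh (2 * κ) / Real.cosh (Q + D + Q) ^ 2) := by
  set δ := Real.sinh D * Real.sinh (2 * κ) / Real.cosh (Q + D + Q) ^ 2 with hδ
  have hδ0 : 0 < δ := by
    have h1 : 0 < Real.sinh D := Real.sinh_pos_iff.2 hD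
    have h2 : 0 < Real.sinh (2 * κ) := Real.sinh_pos_iff.2 (by linarith)
    have h3 := Real.cosh_pos (Q + D + Q)
    positivity
  have hlog : 0 < Real.log (1 + δ) := Real.log_pos (by linarith)
  refine ⟨min (1 / 2) (min (D / Q) (Real.log (1 + δ) / (2 * Q))), ?_, min_le_left _ _, ?_, ?_⟩
  · exact lt_min (by norm_num) (lt_min (by positivity) (by positivity))
  · have : min (1 / 2) (min (D / Q) (Real.log (1 + δ) / (2 * Q))) ≤ D / Q :=
      (min_le_right _ _).trans (min_le_left _ _)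
    rwa [le_div_iff₀ hQ] at this
  · have : min (1 / 2) (min (D / Q) (Real.log (1 + δ) / (2 * Q))) ≤ Real.log (1 + δ) / (2 * Q) :=
      (min_le_right _ _).trans (min_le_right _ _)
    rw [le_div_iff₀ (by positivity)] at this
    linarith

/-- The finite-volume comparison of the three boundary conditions. -/
theorem mag_tri_compare {J lam β : ℝ} (hJ : 0 < J) (hl : 0 < lam) (hβ : 0 < β) :
    ∃ e : ℝ, 0 < e ∧ e < 1 ∧ ∀ a : ℝ, 0 < a → 8 ≤ ⌈1 / a⌉ → ∀ x : sites tri a,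
      (x : ℤ × ℤ).1 + (x : ℤ × ℤ).2 + 2 ≤ ⌈1 / a⌉ →
      (1 - e) * mag (cplK J lam β (sites tri a)) (fld J lam β (sites tri a) (tauA a)) x +
        e * mag (cplK J lam β (sites tri a)) (fld J lam β (sites tri a) (fun _ => true)) x ≤
      mag (cplK J lam β (sites tri a)) (fld J lam β (sites tri a) (tauB a)) x := by
  have hβJ : 0 < β * J := mul_pos hβ hJ
  have hβl : 0 < β * lam := mul_pos hβ hl
  have hQ0 : 0 < Qtot J lam β := by unfold Qtot; positivity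
  obtain ⟨e, he0, he1, he2, he3⟩ := exists_frac hQ0 (D := 2 * (β * lam)) (by positivity) hβJ
  refine ⟨e, he0, by linarith, ?_⟩
  intro a ha hn x hx
  refine compare_abs (cplK_nonneg hJ.le hl.le hβ.le _) x (Q := Qtot J lam β)
    (D := 2 * (β * lam)) (by positivity) hβJ he0 he1 he2 he3 (fldA_nonneg ha hJ.le hl.le hβ.le)
    (fld_mono hJ.le hl.le hβ.le (tauA_le_tauB a)) (fld_mono hJ.le hl.le hβ.le (fun y => le_top))
    (fld_le hJ.le hl.le hβ.le _ _) (sum_cplK_le hJ.le hl.le hβ.le _)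
    (Uset J lam β a) (nbr a) ?_ ?_ ?_ ?_ ?_ ?_
  · intro u hu v hv h
    have h1 := nbr_val ha hn (Finset.mem_coe.1 hu)
    have h2 := nbr_val ha hn (Finset.mem_coe.1 hv)
    rw [h, h2] at h1
    exact (Subtype.ext (add_right_cancel h1)).symm
  · intro u hu h
    have h1 := nbr_layer ha hn hu
    have h2 := ((mem_Uset _).1 h).1
    omega
  · intro u hu h
    have h1 := nbr_layer ha hn hu
    rw [← h] at h1
    omega
  · intro u hu
    exact cplK_step hJ.le hl.le hβ.le (nbr_val ha hn hu)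
  · intro u hu
    have := fld_gap (J := J) (lam := lam) (β := β) ha hJ.le hl.le hβ.le (nbr_layer ha hn hu)
      (nbr_win ha hn hu)
    linarith
  · intro i hi
    rcases rest_cases ha hJ.le hl.le hβ.le i hi with h | h | h
    · left; linarith
    · exact Or.inr (Or.inl h)
    · exact Or.inr (Or.inr h)

end Vale.Agent.P144
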