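import Vale.Agent.P144.Transfer

set_option linter.unusedSectionVars false

namespace Vale.Agent.P144

section Compare
variable {ι : Type*} [Fintype ι] [DecidableEq ι]

theorem mag_multi_transfer {K : ι → ι → ℝ} (hK : ∀ i j, 0 ≤ K i j) (x : ι) (s : ι → ι) (c : ι → ℝ)
    {κ D B : ℝ} (hκ0 : 0 ≤ κ) (hD : 0 ≤ D) (U : Finset ι) :
    ∀ g : ι → ℝ, Set.InjOn s U → (∀ u ∈ U, s u ∉ U) → (∀ u ∈ U, x ≠ s u) →
    (∀ u ∈ U, κ ≤ K (s u) u + K u (s u)) →
    (∀ u ∈ U, |g (s u)| + D + ∑ j, (K (s u) j + K j (s u)) ≤ B) →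
    (∀ u ∈ U, Real.exp (2 * c u) ≤ 1 + Real.sinh D * Real.sinh (2 * κ) / Real.cosh B ^ 2) →
    mag K (fun i => g i + if i ∈ U then c i else 0) x ≤
      mag K (fun i => g i + if i ∈ U.image s then D else 0) x := by
  induction U using Finset.induction_on with
  | empty => intro g _ _ _ _ _ _; simp
  | insert u U hu ih =>
    intro g hinj hU hx hκ hB hc
    have hsu : s u ∉ insert u U := hU u (Finset.mem_insert_self _ _)
    have hsu1 : s u ≠ u := by
      intro h; apply hsu; rw [h]; exact Finset.mem_insert_self _ _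
    have hsu2 : s u ∉ U := fun h => hsu (Finset.mem_insert_of_mem h)
    -- first step
    have step := mag_transfer (K := K) hK (h := fun i => g i + if i ∈ U then c i else 0)
      (s := s u) (u := u) (x := x) (κ := κ) (D := D) (B := B) (c := c u) (Ne.symm hsu1)
      (hx u (Finset.mem_insert_self _ _)) (hκ u (Finset.mem_insert_self _ _)) hκ0 hD
      (by simpa [hsu2] using hB u (Finset.mem_insert_self _ _))
      (hc u (Finset.mem_insert_self _ _))
    have e1 : (fun i => g i + if i ∈ insert u U then c i else 0) =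
        fun i => (g i + if i ∈ U then c i else 0) + if i = u then c u else 0 := by
      funext i
      by_cases h1 : i = u
      · subst h1; simp [hu]
      · simp [Finset.mem_insert, h1]
    rw [e1]
    refine step.trans ?_
    have e2 : (fun i => (g i + if i ∈ U then c i else 0) + if i = s u then D else 0) =
        fun i => (g i + if i = s u then D else 0) + if i ∈ U then c i else 0 := by
      funext i; ring
    rw [e2]
    have inv : ∀ v ∈ U, s v ≠ s u := by
      intro v hv h
      have := hinj (Finset.mem_coe.2 (Finset.mem_insert_of_mem hv))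
        (Finset.mem_coe.2 (Finset.mem_insert_self _ _)) h
      exact hu (this ▸ hv)
    have := ih (fun i => g i + if i = s u then D else 0)
      (hinj.mono (by simp))
      (fun v hv h => hU v (Finset.mem_insert_of_mem hv) (Finset.mem_insert_of_mem h))
      (fun v hv => hx v (Finset.mem_insert_of_mem hv))
      (fun v hv => hκ v (Finset.mem_insert_of_mem hv))
      (fun v hv => by
        have := hB v (Finset.mem_insert_of_mem hv)
        simpa [inv v hv] using this)
      (fun v hv => hc v (Finset.mem_insert_of_mem hv))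
    refine this.trans (le_of_eq ?_)
    congr 1
    funext i
    by_cases h1 : i = s u
    · subst h1
      have : s u ∉ U.image s := by
        intro h
        obtain ⟨v, hv, hv'⟩ := Finset.mem_image.1 h
        exact inv v hv hv'
      simp [this]
    · simp [Finset.mem_image, h1, Ne.symm h1]

/-- The abstract comparison between three boundary fields. -/
theorem mag_compare {K : ι → ι → ℝ} (hK : ∀ i j, 0 ≤ K i j) (x : ι) {h1 h2 hp : ι → ℝ}
    (h10 : ∀ i, 0 ≤ h1 i) (h1p : ∀ i, h1 i ≤ hp i) (U : Finset ι) (s : ι → ι)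
    {κ D B e : ℝ} (he0 : 0 ≤ e) (he1 : e ≤ 1) (hκ0 : 0 ≤ κ) (hD : 0 ≤ D)
    (hinj : Set.InjOn s U) (hU : ∀ u ∈ U, s u ∉ U) (hx : ∀ u ∈ U, x ≠ s u)
    (hκ : ∀ u ∈ U, κ ≤ K (s u) u + K u (s u))
    (hB : ∀ u ∈ U, |h1 (s u) + e * (hp (s u) - h1 (s u))| + D + ∑ j, (K (s u) j + K j (s u)) ≤ B)
    (hc : ∀ u ∈ U, Real.exp (2 * (e * (hp u - h1 u))) ≤
      1 + Real.sinh D * Real.sinh (2 * κ) / Real.cosh B ^ 2)
    (hfinal : ∀ i, (h1 i + if i ∈ U then 0 else e * (hp i - h1 i)) +
      (if i ∈ U.image s then D else 0) ≤ h2 i) :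
    (1 - e) * mag K h1 x + e * mag K hp x ≤ mag K h2 x := by
  refine (mag_ghs hK h10 h1p x he0 he1).trans ?_
  set g : ι → ℝ := fun i => h1 i + if i ∈ U then 0 else e * (hp i - h1 i) with hg
  have e1 : (fun i => h1 i + e * (hp i - h1 i)) =
      fun i => g i + if i ∈ U then e * (hp i - h1 i) else 0 := by
    funext i
    by_cases h : i ∈ U <;> simp [hg, h]
  rw [e1]
  refine (mag_multi_transfer hK x s (fun i => e * (hp i - h1 i)) hκ0 hD U g hinj hU hx hκ ?_ hc).trans
    (mag_mono hK hfinal x)
  intro u hu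
  have : g (s u) = h1 (s u) + e * (hp (s u) - h1 (s u)) := by simp [hg, hU u hu]
  rw [this]
  exact hB u hu

end Compare

end Vale.Agent.P144
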