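import Vale.Agent.P144.Ghs

namespace Vale.Agent.P144

section Concave
variable {ι : Type*} [Fintype ι] [DecidableEq ι]

theorem ham_add (K : ι → ι → ℝ) (h k : ι → ℝ) (t : ℝ) (σ : ι → Bool) :
    ham K (fun i => h i + t * k i) σ = ham K h σ + t * lin k σ := by
  simp only [ham, lin, add_mul, Finset.sum_add_distrib, Finset.mul_sum]
  have : ∑ x, t * k x * spin (σ x) = ∑ x, t * (k x * spin (σ x)) :=
    Finset.sum_congr rfl fun i _ => by ring
  rw [this]; ring

theorem hasDerivAt_usum (K : ι → ι → ℝ) (h k : ι → ℝ) (f : (ι → Bool) → ℝ) (t : ℝ) :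
    HasDerivAt (fun t => usum K (fun i => h i + t * k i) f)
      (usum K (fun i => h i + t * k i) (fun σ => f σ * lin k σ)) t := by
  unfold usum
  simp only [ham_add]
  have : ∀ σ : ι → Bool, HasDerivAt (fun t : ℝ => Real.exp (ham K h σ + t * lin k σ) * f σ)
      (Real.exp (ham K h σ + t * lin k σ) * (f σ * lin k σ)) t := by
    intro σ
    have h1 : HasDerivAt (fun t : ℝ => ham K h σ + t * lin k σ) (lin k σ) t := by
      simpa using ((hasDerivAt_id t).mul_const (lin k σ)).const_add (ham K h σ)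
    have h2 := (h1.exp).mul_const (f σ)
    convert! h2 using 1
    ring
  have h3 := HasDerivAt.fun_sum (u := Finset.univ) fun σ _ => this σ
  exact h3

theorem mag_concave {K : ι → ι → ℝ} {h k : ι → ℝ} (hK : ∀ i j, 0 ≤ K i j) (hh : ∀ i, 0 ≤ h i)
    (hk : ∀ i, 0 ≤ k i) (x : ι) :
    ConcaveOn ℝ (Set.Icc (0:ℝ) 1) (fun t => mag K (fun i => h i + t * k i) x) := by
  set X : (ι → Bool) → ℝ := fun σ => spin (σ x) with hX
  set A : ((ι → Bool) → ℝ) → ℝ → ℝ := fun f t => usum K (fun i => h i + t * k i) f with hA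
  have dA : ∀ f t, HasDerivAt (A f) (A (fun σ => f σ * lin k σ) t) t :=
    fun f t => hasDerivAt_usum K h k f t
  have hZ : ∀ t, 0 < A (fun _ => 1) t := fun t => usum_one_pos _ _
  set g : ℝ → ℝ := fun t => (A (fun σ => X σ * lin k σ) t * A (fun _ => 1) t
      - A X t * A (fun σ => lin k σ) t) / (A (fun _ => 1) t) ^ 2 with hg
  have e1 : (fun σ : ι → Bool => (1:ℝ) * lin k σ) = fun σ => lin k σ := by funext σ; ring
  have d1 : ∀ t, HasDerivAt (fun t => mag K (fun i => h i + t * k i) x) (g t) t := by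
    intro t
    have := (dA X t).div (dA (fun _ => 1) t) (hZ t).ne'
    rw [e1] at this
    exact this
  have d2 : ∀ t, HasDerivAt g
      ((A (fun σ => X σ * lin k σ * lin k σ) t * A (fun _ => 1) t ^ 2
      - A X t * A (fun σ => lin k σ * lin k σ) t * A (fun _ => 1) t
      - 2 * A (fun σ => X σ * lin k σ) t * A (fun _ => 1) t * A (fun σ => lin k σ) t
      + 2 * A X t * A (fun σ => lin k σ) t ^ 2) / (A (fun _ => 1) t) ^ 3) t := by
    intro t
    have n1 := ((dA (fun σ => X σ * lin k σ) t).mul (dA (fun _ => 1) t)).sub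
      ((dA X t).mul (dA (fun σ => lin k σ) t))
    have n2 := (dA (fun _ => 1) t).pow 2
    have n3 := n1.div n2 (pow_ne_zero 2 (hZ t).ne')
    rw [e1] at n3
    convert! n3 using 1
    have := (hZ t).ne'
    simp only [Pi.pow_apply, Pi.mul_apply, Pi.sub_apply]
    field_simp
    ring
  have dmono : ∀ t ∈ Set.Ioo (0:ℝ) 1, deriv g t ≤ 0 := by
    intro t ht
    rw [(d2 t).deriv]
    apply div_nonpos_of_nonpos_of_nonneg
    · exact ghs_cumulant hK (fun i => add_nonneg (hh i) (mul_nonneg ht.1.le (hk i))) x hk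
    · have := hZ t; positivity
  have hderiv : deriv (fun t => mag K (fun i => h i + t * k i) x) = g := by
    funext t; exact (d1 t).deriv
  apply AntitoneOn.concaveOn_of_deriv (convex_Icc 0 1)
  · exact fun t _ => (d1 t).continuousAt.continuousWithinAt
  · exact fun t _ => (d1 t).differentiableAt.differentiableWithinAt
  · rw [hderiv, interior_Icc]
    apply antitoneOn_of_deriv_nonpos (convex_Ioo 0 1)
    · exact fun t _ => (d2 t).continuousAt.continuousWithinAt
    · exact fun t _ => (d2 t).differentiableAt.differentiableWithinAt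
    · rw [interior_Ioo]; exact dmono

/-- GHS concavity along a segment. -/
theorem mag_ghs {K : ι → ι → ℝ} {h h' : ι → ℝ} (hK : ∀ i j, 0 ≤ K i j) (hh : ∀ i, 0 ≤ h i)
    (hk : ∀ i, h i ≤ h' i) (x : ι) {e : ℝ} (he0 : 0 ≤ e) (he1 : e ≤ 1) :
    (1 - e) * mag K h x + e * mag K h' x ≤ mag K (fun i => h i + e * (h' i - h i)) x := by
  have hc := mag_concave (K := K) (h := h) (k := fun i => h' i - h i) hK hh
    (fun i => sub_nonneg.2 (hk i)) x
  have := hc.2 (x := 0) (by simp) (y := 1) (by simp) (sub_nonneg.2 he1) he0 (by ring)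
  simp only [smul_eq_mul, zero_mul, add_zero, one_mul, mul_zero, mul_one, zero_add] at this
  simpa using this

end Concave

end Vale.Agent.P144
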