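import Vale.Agent.P144.Moments

namespace Vale.Agent.P144

section Cone
variable {ι : Type*} [Fintype ι] [DecidableEq ι]

def gens (ι : Type*) : Set ((ι → Q4) → ℝ) :=
  {f | (∃ c : ℝ, 0 ≤ c ∧ f = fun _ => c) ∨ ∃ i, (f = fun q => qa (q i)) ∨ (f = fun q => qb (q i)) ∨
    (f = fun q => qc (q i)) ∨ (f = fun q => qd (q i))}

def cone (ι : Type*) : Subsemiring ((ι → Q4) → ℝ) := Subsemiring.closure (gens ι)

noncomputable def mono (k l m n : ι → ℕ) (q : ι → Q4) : ℝ :=
  ∏ i, (qa (q i) ^ k i * qb (q i) ^ l i * qc (q i) ^ m i * qd (q i) ^ n i)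

theorem sum_mono_nonneg (k l m n : ι → ℕ) : 0 ≤ ∑ q, mono k l m n q := by
  have h := Finset.prod_univ_sum (fun _ : ι => (Finset.univ : Finset Q4))
    (fun i x => (qa x ^ k i * qb x ^ l i * qc x ^ m i * qd x ^ n i : ℝ))
  simp only [Fintype.piFinset_univ] at h
  unfold mono
  rw [← h]
  exact Finset.prod_nonneg fun i _ => moment_nonneg _ _ _ _

theorem mono_of_mem {f : (ι → Q4) → ℝ} (hf : f ∈ Submonoid.closure (gens ι)) :
    ∃ c : ℝ, 0 ≤ c ∧ ∃ k l m n : ι → ℕ, f = fun q => c * mono k l m n q := by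
  induction hf using Submonoid.closure_induction with
  | mem f hf =>
    rcases hf with ⟨c, hc, rfl⟩ | ⟨i, rfl | rfl | rfl | rfl⟩
    · exact ⟨c, hc, 0, 0, 0, 0, by funext q; simp [mono]⟩
    · refine ⟨1, zero_le_one, Pi.single i 1, 0, 0, 0, ?_⟩
      funext q
      simp only [mono, Pi.zero_apply, pow_zero, mul_one, one_mul]
      rw [Finset.prod_eq_single i]
      · simp
      · intro j _ hj; simp [Pi.single_eq_of_ne hj]
      · simp
    · refine ⟨1, zero_le_one, 0, Pi.single i 1, 0, 0, ?_⟩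
      funext q
      simp only [mono, Pi.zero_apply, pow_zero, mul_one, one_mul]
      rw [Finset.prod_eq_single i]
      · simp
      · intro j _ hj; simp [Pi.single_eq_of_ne hj]
      · simp
    · refine ⟨1, zero_le_one, 0, 0, Pi.single i 1, 0, ?_⟩
      funext q
      simp only [mono, Pi.zero_apply, pow_zero, mul_one, one_mul]
      rw [Finset.prod_eq_single i]
      · simp
      · intro j _ hj; simp [Pi.single_eq_of_ne hj]
      · simp
    · refine ⟨1, zero_le_one, 0, 0, 0, Pi.single i 1, ?_⟩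
      funext q
      simp only [mono, Pi.zero_apply, pow_zero, mul_one, one_mul]
      rw [Finset.prod_eq_single i]
      · simp
      · intro j _ hj; simp [Pi.single_eq_of_ne hj]
      · simp
  | one => exact ⟨1, zero_le_one, 0, 0, 0, 0, by funext q; simp [mono]⟩
  | mul f g _ _ hf hg =>
    obtain ⟨c, hc, k, l, m, n, rfl⟩ := hf
    obtain ⟨c', hc', k', l', m', n', rfl⟩ := hg
    refine ⟨c * c', mul_nonneg hc hc', k + k', l + l', m + m', n + n', ?_⟩
    funext q
    have : mono (k + k') (l + l') (m + m') (n + n') q = mono k l m n q * mono k' l' m' n' q := by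
      simp only [mono, ← Finset.prod_mul_distrib, Pi.add_apply, pow_add]
      exact Finset.prod_congr rfl fun i _ => by ring
    simp only [Pi.mul_apply, this]
    ring

theorem cone_sum_nonneg {f : (ι → Q4) → ℝ} (hf : f ∈ cone ι) : 0 ≤ ∑ q, f q := by
  rw [cone, Subsemiring.mem_closure_iff] at hf
  induction hf using AddSubmonoid.closure_induction with
  | mem f hf =>
    obtain ⟨c, hc, k, l, m, n, rfl⟩ := mono_of_mem hf
    rw [← Finset.mul_sum]
    exact mul_nonneg hc (sum_mono_nonneg _ _ _ _)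
  | zero => simp
  | add f g _ _ hf hg =>
    simp only [Pi.add_apply, Finset.sum_add_distrib]
    exact add_nonneg hf hg

theorem cone_const {c : ℝ} (hc : 0 ≤ c) : (fun _ => c) ∈ cone ι :=
  Subsemiring.subset_closure (Or.inl ⟨c, hc, rfl⟩)

theorem cone_a (i : ι) : (fun q => qa (q i)) ∈ cone ι :=
  Subsemiring.subset_closure (Or.inr ⟨i, Or.inl rfl⟩)
theorem cone_b (i : ι) : (fun q => qb (q i)) ∈ cone ι :=
  Subsemiring.subset_closure (Or.inr ⟨i, Or.inr (Or.inl rfl)⟩)
theorem cone_c (i : ι) : (fun q => qc (q i)) ∈ cone ι :=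
  Subsemiring.subset_closure (Or.inr ⟨i, Or.inr (Or.inr (Or.inl rfl))⟩)
theorem cone_d (i : ι) : (fun q => qd (q i)) ∈ cone ι :=
  Subsemiring.subset_closure (Or.inr ⟨i, Or.inr (Or.inr (Or.inr rfl))⟩)

theorem cone_mul {f g : (ι → Q4) → ℝ} (hf : f ∈ cone ι) (hg : g ∈ cone ι) :
    (fun q => f q * g q) ∈ cone ι := mul_mem hf hg

theorem cone_add {f g : (ι → Q4) → ℝ} (hf : f ∈ cone ι) (hg : g ∈ cone ι) :
    (fun q => f q + g q) ∈ cone ι := add_mem hf hg

theorem cone_smul {c : ℝ} (hc : 0 ≤ c) {f : (ι → Q4) → ℝ} (hf : f ∈ cone ι) :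
    (fun q => c * f q) ∈ cone ι := cone_mul (cone_const hc) hf

theorem cone_sum {κ : Type*} (s : Finset κ) {f : κ → (ι → Q4) → ℝ} (hf : ∀ k ∈ s, f k ∈ cone ι) :
    (fun q => ∑ k ∈ s, f k q) ∈ cone ι := by
  have : (fun q => ∑ k ∈ s, f k q) = ∑ k ∈ s, f k := by funext q; simp
  rw [this]
  exact sum_mem hf

theorem cone_exp_nonneg {f g : (ι → Q4) → ℝ} (hg : g ∈ cone ι) (hf : f ∈ cone ι) :
    0 ≤ ∑ q, g q * Real.exp (f q) := by
  have h : HasSum (fun n : ℕ => ∑ q, g q * ((f q) ^ n / n.factorial)) (∑ q, g q * Real.exp (f q)) := by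
    apply hasSum_sum
    intro q _
    have := NormedSpace.expSeries_div_hasSum_exp (f q)
    rw [← Real.exp_eq_exp_ℝ] at this
    exact this.mul_left _
  refine h.nonneg fun n => ?_
  apply cone_sum_nonneg
  have h1 : (fun q => (f q) ^ n) ∈ cone ι := by
    have : (fun q => (f q) ^ n) = f ^ n := by funext q; simp
    rw [this]
    exact pow_mem hf n
  have h2 : (fun q => g q * (f q ^ n / (n.factorial : ℝ)))
      = fun q => g q * (((n.factorial : ℝ))⁻¹ * f q ^ n) := by
    funext q; rw [div_eq_inv_mul]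
  rw [h2]
  exact cone_mul hg (cone_smul (by positivity) h1)

end Cone

end Vale.Agent.P144
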