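import Mathlib

open Filter Topology MeasureTheory

namespace Vale.Agent.P144

/-- A spin configuration on the mesh-`a` lattice `aℤ²`, indexed by `x ∈ ℤ²` (the spin sits at the
point `a x`); `true` is spin `+1`, `false` is spin `-1`. -/
abbrev Config : Type := ℤ × ℤ → Bool

/-- The numerical value `±1` of a spin. -/
noncomputable def spin (b : Bool) : ℝ := if b then 1 else -1

/-- The product of the spins over a finite set. -/
noncomputable def spinProd (A : Finset (ℤ × ℤ)) (σ : Config) : ℝ := ∏ x ∈ A, spin (σ x)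

/-- `A` is a pair of lattice sites whose squared Euclidean distance is `k`. -/
def IsPair (k : ℤ) (A : Finset (ℤ × ℤ)) : Prop :=
  ∃ u v : ℤ × ℤ, (u.1 - v.1) ^ 2 + (u.2 - v.2) ^ 2 = k ∧ A = {u, v}

/-- Finite-range even potentials, invariant under the symmetries of the square lattice. -/
structure IsPotential (V : Finset (ℤ × ℤ) → ℝ) : Prop where
  nonempty_even : ∀ A, V A ≠ 0 → A.Nonempty ∧ Even A.card
  finite_range : ∃ R : ℝ, ∀ A, V A ≠ 0 → ∀ x ∈ A, ∀ y ∈ A,
    Real.sqrt (((x.1 - y.1 : ℤ) : ℝ) ^ 2 + ((x.2 - y.2 : ℤ) : ℝ) ^ 2) ≤ R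
  translation : ∀ (A : Finset (ℤ × ℤ)) (w : ℤ × ℤ), V (A.image fun x => x + w) = V A
  rotation : ∀ A : Finset (ℤ × ℤ), V (A.image fun x => (-x.2, x.1)) = V A
  reflection : ∀ A : Finset (ℤ × ℤ), V (A.image fun x => (-x.1, x.2)) = V A

/-- The sets `A` whose interaction term is kept: `A ⊆ Λ` for the free boundary condition (`none`),
every `A` meeting `Λ` for a prescribed exterior configuration (`some τ`). -/
def terms (Λ : Finset (ℤ × ℤ)) : Option Config → Set (Finset (ℤ × ℤ))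
  | none => {A | A ⊆ Λ}
  | some _ => {A | (A ∩ Λ).Nonempty}

/-- The Hamiltonian `-J ∑ σ_u σ_v - λ ∑ V(A) ∏ σ` in the finite region `Λ`. -/
noncomputable def energy (J lam : ℝ) (V : Finset (ℤ × ℤ) → ℝ) (Λ : Finset (ℤ × ℤ))
    (b : Option Config) (σ : Config) : ℝ :=
  -J * ∑ᶠ A ∈ terms Λ b ∩ {A | IsPair 1 A}, spinProd A σ
    - lam * ∑ᶠ A ∈ terms Λ b, V A * spinProd A σ

/-- Glue a configuration in `Λ` to the prescribed exterior configuration. -/
def glue (Λ : Finset (ℤ × ℤ)) (b : Option Config) (s : Λ → Bool) : Config :=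
  fun x => if h : x ∈ Λ then s ⟨x, h⟩ else (b.getD fun _ => true) x

/-- Finite-volume Gibbs expectation with weight `exp (-β H)`. -/
noncomputable def gibbs (J lam β : ℝ) (V : Finset (ℤ × ℤ) → ℝ) (Λ : Finset (ℤ × ℤ))
    (b : Option Config) (F : Config → ℝ) : ℝ :=
  (∑ s : Λ → Bool, Real.exp (-β * energy J lam V Λ b (glue Λ b s)) * F (glue Λ b s)) /
    ∑ s : Λ → Bool, Real.exp (-β * energy J lam V Λ b (glue Λ b s))

open Classical in
/-- The sites `x` with `a x ∈ D` (a finite set when `D` is bounded and `a > 0`). -/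
noncomputable def sites (D : Set ℂ) (a : ℝ) : Finset (ℤ × ℤ) :=
  if h : {x : ℤ × ℤ | (⟨a * x.1, a * x.2⟩ : ℂ) ∈ D}.Finite then h.toFinset else ∅

/-- A boundary condition: free, or for each mesh a prescribed exterior `±1` configuration. -/
inductive BC : Type
  | free : BC
  | fixed (τ : ℝ → Config) : BC

/-- The boundary condition at mesh `a`. -/
def BC.at (b : BC) (a : ℝ) : Option Config :=
  match b with
  | BC.free => none
  | BC.fixed τ => some (τ a)

/-- Translation-invariant infinite-volume Gibbs states that are weak limits of finite-volume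
Gibbs measures along regions exhausting the plane. -/
def IsPlaneState (J lam β : ℝ) (V : Finset (ℤ × ℤ) → ℝ) (μ : Measure Config) : Prop :=
  IsProbabilityMeasure μ ∧
  (∀ w : ℤ × ℤ, μ.map (fun σ x => σ (x + w)) = μ) ∧
  ∃ (Λ : ℕ → Finset (ℤ × ℤ)) (b : ℕ → Option Config),
    (∀ B : Finset (ℤ × ℤ), ∀ᶠ k in atTop, B ⊆ Λ k) ∧
    ∀ A : Finset (ℤ × ℤ),
      Tendsto (fun k => gibbs J lam β V (Λ k) (b k) (spinProd A)) atTop
        (𝓝 (∫ σ, spinProd A σ ∂μ))

/-- The site `[x]_a / a`. -/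
noncomputable def site (a : ℝ) (x : ℂ) : ℤ × ℤ := (⌊x.re / a⌋, ⌊x.im / a⌋)

/-- The unit vectors `e₁, e₂`. -/
def dirVec (j : Fin 2) : ℤ × ℤ := if j = 0 then (1, 0) else (0, 1)

/-- The product of the two spins of the bond from `[y]_a` in direction `e_j`. -/
noncomputable def bond (a : ℝ) (j : Fin 2) (y : ℂ) (σ : Config) : ℝ :=
  spin (σ (site a y)) * spin (σ (site a y + dirVec j))

/-- The mixed correlation `⟨∏ S_a(x_i) ∏ E_{a,j_k}(y_k)⟩` of a state `E`, with
`S_a = a^{-1/8} σ` and `E_{a,j} = a^{-1} (σσ - E(σσ))`. -/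
noncomputable def corr (E : (Config → ℝ) → ℝ) (a : ℝ) {n m : ℕ} (x : Fin n → ℂ) (y : Fin m → ℂ)
    (j : Fin m → Fin 2) : ℝ :=
  E fun σ => (∏ i, a ^ (-(1 / 8) : ℝ) * spin (σ (site a (x i)))) *
    ∏ k, a⁻¹ * (bond a (j k) (y k) σ - E (bond a (j k) (y k)))

/-- A family of candidate continuum correlation functions. -/
abbrev CorrFamily : Type := ∀ n m : ℕ, (Fin n → ℂ) → (Fin m → ℂ) → ℝ

/-- `C` is the `a ↓ 0` limit in `U` of all mixed correlations (`n + m ≥ 1`, distinct points of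
`U`) of the states `E a`, for all choices of the bond directions. -/
def IsCorrLimit (E : ℝ → (Config → ℝ) → ℝ) (U : Set ℂ) (C : CorrFamily) : Prop :=
  ∀ (n m : ℕ) (x : Fin n → ℂ) (y : Fin m → ℂ) (j : Fin m → Fin 2), 1 ≤ n + m →
    (∀ i, x i ∈ U) → (∀ k, y k ∈ U) → Function.Injective (Sum.elim x y) →
    Tendsto (fun a => corr (E a) a x y j) (𝓝[>] 0) (𝓝 (C n m x y))

/-- `K_c = ½ log (1 + √2)`. -/
noncomputable def Kc : ℝ := Real.log (1 + Real.sqrt 2) / 2

/-- The state of the model in the domain `D` at mesh `a`. -/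
noncomputable def domState (J lam β : ℝ) (V : Finset (ℤ × ℤ) → ℝ) (D : Set ℂ) (b : BC) (a : ℝ) :
    (Config → ℝ) → ℝ :=
  gibbs J lam β V (sites D a) (b.at a)

/-- The critical nearest-neighbour (`λ = 0`, `β = K_c / J`) state in the domain `D`. -/
noncomputable def nnState (J : ℝ) (D : Set ℂ) (b : BC) (a : ℝ) : (Config → ℝ) → ℝ :=
  domState J 0 (Kc / J) (fun _ => 0) D b a

/-- The two parts of the universality statement for one model `(J, V, λ)`: existence of
`β, Z_σ, Z_ε` with the stated limits in the plane and in every bounded domain. -/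
def UniversalFor (J : ℝ) (V : Finset (ℤ × ℤ) → ℝ) (lam : ℝ) : Prop :=
  ∃ β > 0, ∃ Zs Ze : ℝ, Zs ≠ 0 ∧ Ze ≠ 0 ∧
    (∃ (μ₀ μ : ℝ → Measure Config) (C : CorrFamily),
      (∀ a > 0, IsPlaneState J 0 (Kc / J) (fun _ => 0) (μ₀ a)) ∧
      (∀ a > 0, IsPlaneState J lam β V (μ a)) ∧
      IsCorrLimit (fun a F => ∫ σ, F σ ∂μ₀ a) Set.univ C ∧
      IsCorrLimit (fun a F => ∫ σ, F σ ∂μ a) Set.univ fun n m x y => Zs ^ n * Ze ^ m * C n m x y) ∧
    (∀ D : Set ℂ, IsOpen D → IsConnected D → Bornology.IsBounded D → ∀ (b : BC) (C : CorrFamily),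
      IsCorrLimit (nnState J D b) D C →
      IsCorrLimit (domState J lam β V D b) D fun n m x y => Zs ^ n * Ze ^ m * C n m x y)

/-- Question Q1 of P144. -/
def Q1 : Prop :=
  ∀ J > 0, ∀ V, IsPotential V → ∃ lam₀ > 0, ∀ lam : ℝ, |lam| < lam₀ → UniversalFor J V lam

open Classical in
/-- A ferromagnetic pair potential: value `1` on pairs at distance `2` and value `2` on pairs at
distance `√2`. -/
noncomputable def Vstar (A : Finset (ℤ × ℤ)) : ℝ :=
  (if IsPair 4 A then 1 else 0) + (if IsPair 2 A then 2 else 0)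

/-- The open triangle with vertices `-1 - i`, `2 - i`, `-1 + 2i`. -/
def tri : Set ℂ := {z | -1 < z.re ∧ -1 < z.im ∧ z.re + z.im < 1}

/-- Exterior configuration: `+1`, except on the middle half of the hypotenuse, where the spins of
the first two exterior layers alternate. -/
noncomputable def tauA (a : ℝ) : Config := fun x =>
  !decide (Odd x.1 ∧ ((x.1 + x.2 = ⌈1 / a⌉ ∧ 2 * |x.1 - x.2| ≤ ⌈1 / a⌉) ∨
    (x.1 + x.2 = ⌈1 / a⌉ + 1 ∧ 2 * |x.1 - x.2| ≤ ⌈1 / a⌉ + 12)))

/-- The same first exterior layer, and `+1` on the second layer. -/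
noncomputable def tauB (a : ℝ) : Config := fun x =>
  !decide (Odd x.1 ∧ x.1 + x.2 = ⌈1 / a⌉ ∧ 2 * |x.1 - x.2| ≤ ⌈1 / a⌉)

/-- The plus boundary condition. -/
def bcPlus : BC := BC.fixed fun _ _ => true

/-- The boundary condition given by `tauA`. -/
noncomputable def bcA : BC := BC.fixed tauA

/-- The boundary condition given by `tauB`. -/
noncomputable def bcB : BC := BC.fixed tauB

end Vale.Agent.P144
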