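import Vale.Agent.P144.Pairs

set_option linter.unusedSectionVars false
set_option linter.unusedSimpArgs false

namespace Vale.Agent.P144

/-- the six positive displacements -/
def disp : Finset (ℤ × ℤ) := {(1, 0), (0, 1), (1, 1), (1, -1), (2, 0), (0, 2)}

/-- the weights of the displacements -/
noncomputable def wd (J lam β : ℝ) (d : ℤ × ℤ) : ℝ :=
  if d = (1, 0) ∨ d = (0, 1) then β * J else if d = (1, 1) ∨ d = (1, -1) then 2 * (β * lam)
  else β * lam

theorem sum_disp (f : ℤ × ℤ → ℝ) : ∑ d ∈ disp, f d =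
    f (1, 0) + f (0, 1) + f (1, 1) + f (1, -1) + f (2, 0) + f (0, 2) := by
  unfold disp
  rw [Finset.sum_insert (by decide), Finset.sum_insert (by decide), Finset.sum_insert (by decide),
    Finset.sum_insert (by decide), Finset.sum_insert (by decide), Finset.sum_singleton]
  ring

theorem wd_10 (J lam β : ℝ) : wd J lam β (1, 0) = β * J := by simp [wd]
theorem wd_01 (J lam β : ℝ) : wd J lam β (0, 1) = β * J := by simp [wd]
theorem wd_11 (J lam β : ℝ) : wd J lam β (1, 1) = 2 * (β * lam) := by simp [wd]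
theorem wd_1m (J lam β : ℝ) : wd J lam β (1, -1) = 2 * (β * lam) := by simp [wd]
theorem wd_20 (J lam β : ℝ) : wd J lam β (2, 0) = β * lam := by simp [wd]
theorem wd_02 (J lam β : ℝ) : wd J lam β (0, 2) = β * lam := by simp [wd]

theorem sum_wd (J lam β : ℝ) (f : ℤ × ℤ → ℝ) : ∑ d ∈ disp, wd J lam β d * f d =
    β * J * (f (1, 0) + f (0, 1)) + 2 * (β * lam) * (f (1, 1) + f (1, -1)) +
      β * lam * (f (2, 0) + f (0, 2)) := by
  rw [sum_disp, wd_10, wd_01, wd_11, wd_1m, wd_20, wd_02]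
  ring

/-- the exterior spin at `y` (zero inside) -/
noncomputable def out (Λ : Finset (ℤ × ℤ)) (τ : Config) (y : ℤ × ℤ) : ℝ :=
  if y ∈ Λ then 0 else spin (τ y)

/-- the interior spin at `y` (zero outside) -/
noncomputable def ins (Λ : Finset (ℤ × ℤ)) (σ : Config) (y : ℤ × ℤ) : ℝ :=
  if y ∈ Λ then spin (σ y) else 0

/-- the couplings inside `Λ` -/
noncomputable def cplK (J lam β : ℝ) (Λ : Finset (ℤ × ℤ)) (x y : Λ) : ℝ :=
  ∑ d ∈ disp, if (y : ℤ × ℤ) = x + d then wd J lam β d else 0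

/-- the exterior field -/
noncomputable def fld (J lam β : ℝ) (Λ : Finset (ℤ × ℤ)) (τ : Config) (x : Λ) : ℝ :=
  ∑ d ∈ disp, wd J lam β d * (out Λ τ (x + d) + out Λ τ (x - d))

theorem spin_glue (Λ : Finset (ℤ × ℤ)) (τ : Config) (s : Λ → Bool) (y : ℤ × ℤ) :
    spin (glue Λ (some τ) s y) = ins Λ (glue Λ (some τ) s) y + out Λ τ y := by
  unfold ins out
  by_cases h : y ∈ Λ
  · simp [h]
  · simp [h, glue]

theorem glue_coe (Λ : Finset (ℤ × ℤ)) (b : Option Config) (s : Λ → Bool) (y : Λ) :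
    glue Λ b s y = s y := by
  simp [glue]

theorem sum_cplK (J lam β : ℝ) (Λ : Finset (ℤ × ℤ)) (b : Option Config) (s : Λ → Bool) (x : Λ) :
    ∑ y, cplK J lam β Λ x y * (spin (s x) * spin (s y)) =
      ∑ d ∈ disp, wd J lam β d * (spin (s x) * ins Λ (glue Λ b s) (x + d)) := by
  unfold cplK
  simp only [Finset.sum_mul]
  rw [Finset.sum_comm]
  refine Finset.sum_congr rfl fun d _ => ?_
  by_cases h : (x : ℤ × ℤ) + d ∈ Λ
  · rw [Finset.sum_eq_single ⟨(x : ℤ × ℤ) + d, h⟩]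
    · simp only [ins, h, if_true, glue, dite_true]
    · intro y _ hy
      have : (y : ℤ × ℤ) ≠ x + d := fun h' => hy (Subtype.ext h')
      simp [this]
    · simp
  · rw [Finset.sum_eq_zero]
    · simp [ins, h]
    · intro y _
      have : (y : ℤ × ℤ) ≠ x + d := fun h' => h (h' ▸ y.2)
      simp [this]

theorem finsum_Vstar (Λ : Finset (ℤ × ℤ)) (σ : Config) :
    ∑ᶠ A ∈ {A : Finset (ℤ × ℤ) | (A ∩ Λ).Nonempty}, Vstar A * spinProd A σ =
      (∑ᶠ A ∈ ({A : Finset (ℤ × ℤ) | (A ∩ Λ).Nonempty} ∩ {A | IsPair 4 A}), spinProd A σ) +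
      2 * ∑ᶠ A ∈ ({A : Finset (ℤ × ℤ) | (A ∩ Λ).Nonempty} ∩ {A | IsPair 2 A}), spinProd A σ := by
  classical
  set T : Finset (Finset (ℤ × ℤ)) := (idx Λ {(2, 0), (0, 2)}).image toPair ∪
    (idx Λ {(1, 1), (1, -1)}).image toPair with hT
  have m4 : ∀ A, A ∈ (idx Λ {(2, 0), (0, 2)}).image toPair ↔ ((A ∩ Λ).Nonempty ∧ IsPair 4 A) := by
    intro A
    have := pairset_eq half_four Λ
    rw [← Finset.mem_coe, ← this]; rfl
  have m2 : ∀ A, A ∈ (idx Λ {(1, 1), (1, -1)}).image toPair ↔ ((A ∩ Λ).Nonempty ∧ IsPair 2 A) := by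
    intro A
    have := pairset_eq half_two Λ
    rw [← Finset.mem_coe, ← this]; rfl
  have hTm : ∀ A, A ∈ T ↔ ((A ∩ Λ).Nonempty ∧ (IsPair 4 A ∨ IsPair 2 A)) := by
    intro A
    rw [hT, Finset.mem_union, m4, m2]; tauto
  have e1 : ∑ᶠ A ∈ {A : Finset (ℤ × ℤ) | (A ∩ Λ).Nonempty}, Vstar A * spinProd A σ =
      ∑ A ∈ T, Vstar A * spinProd A σ := by
    apply finsum_mem_eq_sum_of_inter_support_eq
    ext A
    simp only [Set.mem_inter_iff, Function.mem_support, Finset.mem_coe, hTm]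
    constructor
    · rintro ⟨h1, h2⟩
      refine ⟨⟨h1, ?_⟩, h2⟩
      by_contra h3
      push Not at h3
      apply h2
      simp [Vstar, h3.1, h3.2]
    · rintro ⟨⟨h1, _⟩, h2⟩
      exact ⟨h1, h2⟩
  have e4 : ∑ᶠ A ∈ ({A : Finset (ℤ × ℤ) | (A ∩ Λ).Nonempty} ∩ {A | IsPair 4 A}), spinProd A σ =
      ∑ A ∈ T.filter (fun A => IsPair 4 A), spinProd A σ := by
    apply finsum_mem_eq_sum_of_inter_support_eq
    ext A
    simp only [Set.mem_inter_iff, Function.mem_support, Finset.mem_coe, Finset.mem_filter, hTm]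
    constructor
    · rintro ⟨⟨h1, h2⟩, h3⟩
      exact ⟨⟨⟨h1, Or.inl h2⟩, h2⟩, h3⟩
    · rintro ⟨⟨⟨h1, _⟩, h2⟩, h3⟩
      exact ⟨⟨h1, h2⟩, h3⟩
  have e2 : ∑ᶠ A ∈ ({A : Finset (ℤ × ℤ) | (A ∩ Λ).Nonempty} ∩ {A | IsPair 2 A}), spinProd A σ =
      ∑ A ∈ T.filter (fun A => IsPair 2 A), spinProd A σ := by
    apply finsum_mem_eq_sum_of_inter_support_eq
    ext A
    simp only [Set.mem_inter_iff, Function.mem_support, Finset.mem_coe, Finset.mem_filter, hTm]
    constructor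
    · rintro ⟨⟨h1, h2⟩, h3⟩
      exact ⟨⟨⟨h1, Or.inr h2⟩, h2⟩, h3⟩
    · rintro ⟨⟨⟨h1, _⟩, h2⟩, h3⟩
      exact ⟨⟨h1, h2⟩, h3⟩
  rw [e1, e4, e2, Finset.sum_filter, Finset.sum_filter, Finset.mul_sum, ← Finset.sum_add_distrib]
  refine Finset.sum_congr rfl fun A _ => ?_
  unfold Vstar
  by_cases h4 : IsPair 4 A <;> by_cases h2 : IsPair 2 A <;> simp [h4, h2] <;> ring

/-- The exponent of the Gibbs weight in matrix/field form. -/
theorem exponent_eq (J lam β : ℝ) (Λ : Finset (ℤ × ℤ)) (τ : Config) (s : Λ → Bool) :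
    -β * energy J lam Vstar Λ (some τ) (glue Λ (some τ) s) =
      ham (cplK J lam β Λ) (fld J lam β Λ τ) s := by
  set σ := glue Λ (some τ) s with hσ
  have e1 : energy J lam Vstar Λ (some τ) σ =
      -J * (∑ᶠ A ∈ ({A : Finset (ℤ × ℤ) | (A ∩ Λ).Nonempty} ∩ {A | IsPair 1 A}), spinProd A σ) -
      lam * ((∑ᶠ A ∈ ({A : Finset (ℤ × ℤ) | (A ∩ Λ).Nonempty} ∩ {A | IsPair 4 A}), spinProd A σ) +
      2 * ∑ᶠ A ∈ ({A : Finset (ℤ × ℤ) | (A ∩ Λ).Nonempty} ∩ {A | IsPair 2 A}), spinProd A σ) := by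
    unfold energy terms
    rw [finsum_Vstar]
  rw [e1, finsum_pairs half_one, finsum_pairs half_two, finsum_pairs half_four]
  -- rewrite sums over a pair set
  have key : ∀ x ∈ Λ, ∀ d : ℤ × ℤ, (spin (σ x) * spin (σ (x + d)) +
        if x - d ∈ Λ then 0 else spin (σ x) * spin (σ (x - d))) =
      spin (σ x) * (ins Λ σ (x + d) + (out Λ τ (x + d) + out Λ τ (x - d))) := by
    intro x _ d
    have h1 := spin_glue Λ τ s (x + d)
    rw [← hσ] at h1
    rw [h1]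
    have h2 : (if x - d ∈ Λ then 0 else spin (σ x) * spin (σ (x - d))) =
        spin (σ x) * out Λ τ (x - d) := by
      by_cases h : x - d ∈ Λ
      · simp [out, h]
      · simp [out, h, hσ, glue]
    rw [h2]; ring
  have c1 : ∀ P : Finset (ℤ × ℤ), ∑ x ∈ Λ, ∑ d ∈ P, (spin (σ x) * spin (σ (x + d)) +
        if x - d ∈ Λ then 0 else spin (σ x) * spin (σ (x - d))) =
      ∑ x ∈ Λ, ∑ d ∈ P, spin (σ x) * (ins Λ σ (x + d) + (out Λ τ (x + d) + out Λ τ (x - d))) :=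
    fun P => Finset.sum_congr rfl fun x hx => Finset.sum_congr rfl fun d _ => key x hx d
  rw [c1, c1, c1]
  have p1 : ∀ f : ℤ × ℤ → ℝ, ∑ d ∈ ({(1, 0), (0, 1)} : Finset (ℤ × ℤ)), f d = f (1, 0) + f (0, 1) := by
    intro f; rw [Finset.sum_pair (by decide)]
  have p2 : ∀ f : ℤ × ℤ → ℝ, ∑ d ∈ ({(1, 1), (1, -1)} : Finset (ℤ × ℤ)), f d = f (1, 1) + f (1, -1) := by
    intro f; rw [Finset.sum_pair (by decide)]
  have p4 : ∀ f : ℤ × ℤ → ℝ, ∑ d ∈ ({(2, 0), (0, 2)} : Finset (ℤ × ℤ)), f d = f (2, 0) + f (0, 2) := by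
    intro f; rw [Finset.sum_pair (by decide)]
  simp only [p1, p2, p4]
  -- right-hand side
  unfold ham
  simp only [sum_cplK J lam β Λ (some τ) s, fld, ← hσ]
  rw [← Finset.sum_add_distrib]
  have hs : ∀ x : Λ, spin (s x) = spin (σ x) := fun x => by rw [hσ, glue_coe]
  have rhs : ∀ x : Λ, (∑ d ∈ disp, wd J lam β d * (spin (s x) * ins Λ σ (x + d))) +
      (∑ d ∈ disp, wd J lam β d * (out Λ τ (x + d) + out Λ τ (x - d))) * spin (s x) =
      (fun x : ℤ × ℤ => ∑ d ∈ disp, wd J lam β d *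
        (spin (σ x) * (ins Λ σ (x + d) + (out Λ τ (x + d) + out Λ τ (x - d))))) x := by
    intro x
    rw [hs, Finset.sum_mul, ← Finset.sum_add_distrib]
    exact Finset.sum_congr rfl fun d _ => by ring
  simp only [rhs]
  rw [Finset.sum_coe_sort Λ (fun x : ℤ × ℤ => ∑ d ∈ disp, wd J lam β d *
        (spin (σ x) * (ins Λ σ (x + d) + (out Λ τ (x + d) + out Λ τ (x - d)))))]
  simp only [sum_wd]
  simp only [Finset.mul_sum, ← Finset.sum_add_distrib, ← Finset.sum_sub_distrib]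
  exact Finset.sum_congr rfl fun x _ => by ring

theorem gibbs_eq_mag (J lam β : ℝ) (Λ : Finset (ℤ × ℤ)) (τ : Config) (x : Λ) :
    gibbs J lam β Vstar Λ (some τ) (fun σ => spin (σ x)) =
      mag (cplK J lam β Λ) (fld J lam β Λ τ) x := by
  unfold gibbs mag usum
  simp only [exponent_eq, glue_coe, mul_one]

end Vale.Agent.P144
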