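import Vale.Agent.P144.Bound

set_option linter.unusedSectionVars false
set_option linter.unusedSimpArgs false

open Filter Topology MeasureTheory

namespace Vale.Agent.P144

/-- Two configurations agree on the half plane `z.1 + z.2 ≤ n`. -/
def AgreeUpTo (n : ℤ) (σ σ' : Config) : Prop := ∀ z : ℤ × ℤ, z.1 + z.2 ≤ n → σ z = σ' z

theorem gibbs_congr {J lam β : ℝ} {V : Finset (ℤ × ℤ) → ℝ} {Λ : Finset (ℤ × ℤ)}
    {b b' : Option Config} {F : Config → ℝ}
    (hE : ∀ s, energy J lam V Λ b (glue Λ b s) = energy J lam V Λ b' (glue Λ b' s))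
    (hF : ∀ s, F (glue Λ b s) = F (glue Λ b' s)) :
    gibbs J lam β V Λ b F = gibbs J lam β V Λ b' F := by
  unfold gibbs
  simp only [hE, hF]

theorem gibbs_const_mul (J lam β : ℝ) (V : Finset (ℤ × ℤ) → ℝ) (Λ : Finset (ℤ × ℤ))
    (b : Option Config) (c : ℝ) (F : Config → ℝ) :
    gibbs J lam β V Λ b (fun σ => c * F σ) = c * gibbs J lam β V Λ b F := by
  unfold gibbs
  rw [← mul_div_assoc, Finset.mul_sum]
  congr 1
  exact Finset.sum_congr rfl fun s _ => by ring

theorem tau_agree {a : ℝ} {z : ℤ × ℤ} (h : z.1 + z.2 ≤ ⌈1 / a⌉) : tauA a z = tauB a z := by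
  have : (Odd z.1 ∧ ((z.1 + z.2 = ⌈1 / a⌉ ∧ 2 * |z.1 - z.2| ≤ ⌈1 / a⌉) ∨
      (z.1 + z.2 = ⌈1 / a⌉ + 1 ∧ 2 * |z.1 - z.2| ≤ ⌈1 / a⌉ + 12))) ↔
      (Odd z.1 ∧ z.1 + z.2 = ⌈1 / a⌉ ∧ 2 * |z.1 - z.2| ≤ ⌈1 / a⌉) := by
    constructor
    · rintro ⟨h1, h2 | ⟨h2, _⟩⟩
      · exact ⟨h1, h2⟩
      · omega
    · rintro ⟨h1, h2⟩
      exact ⟨h1, Or.inl h2⟩
  unfold tauA tauB
  simp only [this]

theorem glue_agree (a : ℝ) (Λ : Finset (ℤ × ℤ)) (s : Λ → Bool) :
    AgreeUpTo ⌈1 / a⌉ (glue Λ (some (tauA a)) s) (glue Λ (some (tauB a)) s) := by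
  intro z hz
  unfold glue
  by_cases h : z ∈ Λ
  · simp [h]
  · simp [h, tau_agree hz]

theorem energy_agree {J a : ℝ} (ha : 0 < a) {σ σ' : Config} (h : AgreeUpTo ⌈1 / a⌉ σ σ')
    (τ τ' : Config) :
    energy J 0 (fun _ => 0) (sites tri a) (some τ) σ =
      energy J 0 (fun _ => 0) (sites tri a) (some τ') σ' := by
  have ht : terms (sites tri a) (some τ) = terms (sites tri a) (some τ') := rfl
  unfold energy
  rw [ht]
  have key : ∑ᶠ A ∈ terms (sites tri a) (some τ') ∩ {A | IsPair 1 A}, spinProd A σ =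
      ∑ᶠ A ∈ terms (sites tri a) (some τ') ∩ {A | IsPair 1 A}, spinProd A σ' := by
    refine finsum_mem_congr rfl ?_
    rintro A ⟨hA1, u, v, huv, rfl⟩
    obtain ⟨w, hw⟩ := hA1
    rw [Finset.mem_inter] at hw
    have hws := sum_lt_of_mem ha hw.2
    have hd : -1 ≤ (u.1 - v.1) + (u.2 - v.2) ∧ (u.1 - v.1) + (u.2 - v.2) ≤ 1 := by
      have h1 : -1 ≤ u.1 - v.1 := by nlinarith [sq_nonneg (u.2 - v.2)]
      have h2 : u.1 - v.1 ≤ 1 := by nlinarith [sq_nonneg (u.2 - v.2)]
      have h3 : -1 ≤ u.2 - v.2 := by nlinarith [sq_nonneg (u.1 - v.1)]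
      have h4 : u.2 - v.2 ≤ 1 := by nlinarith [sq_nonneg (u.1 - v.1)]
      generalize u.1 - v.1 = p at *
      generalize u.2 - v.2 = q at *
      constructor <;> nlinarith
    have hbound : ∀ z ∈ ({u, v} : Finset (ℤ × ℤ)), z.1 + z.2 ≤ ⌈1 / a⌉ := by
      have hw1 := hw.1
      simp only [Finset.mem_insert, Finset.mem_singleton] at hw1
      intro z hz
      simp only [Finset.mem_insert, Finset.mem_singleton] at hz
      rcases hw1 with rfl | rfl <;> rcases hz with rfl | rfl <;> omega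
    unfold spinProd
    exact Finset.prod_congr rfl fun z hz => by rw [h z (hbound z hz)]
  rw [key]
  simp

/-- The critical nearest-neighbour states for `tauA` and `tauB` agree on local observables. -/
theorem nn_agree {J β a : ℝ} (ha : 0 < a) {F : Config → ℝ}
    (hF : ∀ σ σ', AgreeUpTo ⌈1 / a⌉ σ σ' → F σ = F σ') :
    gibbs J 0 β (fun _ => 0) (sites tri a) (some (tauA a)) F =
      gibbs J 0 β (fun _ => 0) (sites tri a) (some (tauB a)) F :=
  gibbs_congr (fun s => energy_agree ha (glue_agree a _ s) _ _) fun s => hF _ _ (glue_agree a _ s)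

theorem corr_congr {E E' : (Config → ℝ) → ℝ} {a : ℝ} {N : ℤ}
    (hE : ∀ F : Config → ℝ, (∀ σ σ', AgreeUpTo N σ σ' → F σ = F σ') → E F = E' F) {n m : ℕ}
    {x : Fin n → ℂ} {y : Fin m → ℂ} {j : Fin m → Fin 2}
    (hx : ∀ i, (site a (x i)).1 + (site a (x i)).2 + 1 ≤ N)
    (hy : ∀ k, (site a (y k)).1 + (site a (y k)).2 + 1 ≤ N) :
    corr E a x y j = corr E' a x y j := by
  have hbond : ∀ (k : Fin m) (σ σ' : Config), AgreeUpTo N σ σ' →
      bond a (j k) (y k) σ = bond a (j k) (y k) σ' := by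
    intro k σ σ' h
    unfold bond
    rw [h (site a (y k)) (by have := hy k; omega), h (site a (y k) + dirVec (j k)) (by
      have := hy k
      simp only [Prod.fst_add, Prod.snd_add]
      unfold dirVec
      split_ifs <;> simp only <;> omega)]
  have hb : ∀ k, E (bond a (j k) (y k)) = E' (bond a (j k) (y k)) := fun k =>
    hE _ (hbond k)
  unfold corr
  simp only [hb]
  apply hE
  intro σ σ' h
  congr 1
  · exact Finset.prod_congr rfl fun i _ => by rw [h (site a (x i)) (by have := hx i; omega)]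
  · exact Finset.prod_congr rfl fun k _ => by rw [hbond k σ σ' h]

theorem site_sum_lt {a : ℝ} (ha : 0 < a) {x : ℂ} (hx : x ∈ tri) :
    (site a x).1 + (site a x).2 + 1 ≤ ⌈1 / a⌉ := by
  obtain ⟨_, _, h3⟩ := hx
  have h : (((site a x).1 + (site a x).2 : ℤ) : ℝ) < 1 / a := by
    push_cast
    have f1 : ((site a x).1 : ℝ) ≤ x.re / a := Int.floor_le _
    have f2 : ((site a x).2 : ℝ) ≤ x.im / a := Int.floor_le _
    have : x.re / a + x.im / a < 1 / a := by
      rw [← add_div]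
      exact div_lt_div_of_pos_right h3 ha
    linarith
  have := Int.lt_ceil.2 h
  omega

theorem isCorrLimit_B {J : ℝ} {C : CorrFamily} (h : IsCorrLimit (nnState J tri bcA) tri C) :
    IsCorrLimit (nnState J tri bcB) tri C := by
  intro n m x y j hnm hx hy hinj
  refine (h n m x y j hnm hx hy hinj).congr' ?_
  filter_upwards [self_mem_nhdsWithin] with a ha
  exact corr_congr (N := ⌈1 / a⌉) (fun F hF => nn_agree (J := J) (β := Kc / J) ha hF)
    (fun i => site_sum_lt ha (hx i)) (fun k => site_sum_lt ha (hy k))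

theorem site_mem {x : ℂ} (hx : x ∈ tri) : ∀ᶠ a in 𝓝[>] (0 : ℝ), 0 < a ∧ 8 ≤ ⌈1 / a⌉ ∧
    site a x ∈ sites tri a ∧ (site a x).1 + (site a x).2 + 2 ≤ ⌈1 / a⌉ := by
  obtain ⟨h1, h2, h3⟩ := hx
  have hδ : 0 < min (min (x.re + 1) (x.im + 1)) (min ((1 - x.re - x.im) / 2) (1 / 8)) :=
    lt_min (lt_min (by linarith) (by linarith)) (lt_min (by linarith) (by norm_num))
  filter_upwards [Ioo_mem_nhdsGT hδ] with a ha
  obtain ⟨ha0, ha1⟩ := ha
  have l1 : a < x.re + 1 := lt_of_lt_of_le ha1 ((min_le_left _ _).trans (min_le_left _ _))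
  have l2 : a < x.im + 1 := lt_of_lt_of_le ha1 ((min_le_left _ _).trans (min_le_right _ _))
  have l3 : a < (1 - x.re - x.im) / 2 :=
    lt_of_lt_of_le ha1 ((min_le_right _ _).trans (min_le_left _ _))
  have l4 : a < 1 / 8 := lt_of_lt_of_le ha1 ((min_le_right _ _).trans (min_le_right _ _))
  have e1 : x.re / a * a = x.re := div_mul_cancel₀ _ ha0.ne'
  have e2 : x.im / a * a = x.im := div_mul_cancel₀ _ ha0.ne'
  have f1 : ((site a x).1 : ℝ) ≤ x.re / a := Int.floor_le _
  have f2 : ((site a x).2 : ℝ) ≤ x.im / a := Int.floor_le _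
  have g1 : x.re / a < ((site a x).1 : ℝ) + 1 := Int.lt_floor_add_one _
  have g2 : x.im / a < ((site a x).2 : ℝ) + 1 := Int.lt_floor_add_one _
  have p1 := mul_le_mul_of_nonneg_right f1 ha0.le
  have p2 := mul_le_mul_of_nonneg_right f2 ha0.le
  have p3 := mul_lt_mul_of_pos_right g1 ha0
  have p4 := mul_lt_mul_of_pos_right g2 ha0
  refine ⟨ha0, ?_, ?_, ?_⟩
  · have : (8 : ℝ) ≤ 1 / a := by
      rw [le_div_iff₀ ha0]; linarith
    have h8 : ((8 : ℤ) : ℝ) ≤ ⌈1 / a⌉ := by
      push_cast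
      exact this.trans (Int.le_ceil _)
    exact_mod_cast h8
  · rw [mem_sites_tri ha0]
    refine ⟨by linarith, by linarith, by linarith⟩
  · have : (((site a x).1 + (site a x).2 + 2 : ℤ) : ℝ) ≤ 1 / a := by
      push_cast
      rw [le_div_iff₀ ha0]
      linarith
    have h2 := this.trans (Int.le_ceil _)
    exact_mod_cast h2

theorem corr_one (J lam β : ℝ) (b : BC) (x : ℂ) (j : Fin 0 → Fin 2) {a : ℝ}
    (hx : site a x ∈ sites tri a) {τ : ℝ → Config} (hb : b = BC.fixed τ) :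
    corr (domState J lam β Vstar tri b a) a ![x] ![] j =
      a ^ (-(1 / 8) : ℝ) * mag (cplK J lam β (sites tri a)) (fld J lam β (sites tri a) (τ a))
        ⟨site a x, hx⟩ := by
  subst hb
  have h := gibbs_eq_mag J lam β (sites tri a) (τ a) ⟨site a x, hx⟩
  rw [← h, ← gibbs_const_mul]
  unfold corr domState BC.at
  simp

/-- Main theorem: if the universality statement holds for the model with potential `Vstar` at some
`lam > 0`, then the critical nearest-neighbour one-point functions with boundary conditions `bcA`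
and `bcPlus` in the triangle coincide. -/
theorem one_point_eq {J lam : ℝ} (hJ : 0 < J) (hl : 0 < lam) (hU : UniversalFor J Vstar lam)
    {CA CP : CorrFamily} (hA : IsCorrLimit (nnState J tri bcA) tri CA)
    (hP : IsCorrLimit (nnState J tri bcPlus) tri CP)
    (htri : IsOpen tri ∧ IsConnected tri ∧ Bornology.IsBounded tri) {x : ℂ} (hx : x ∈ tri) :
    CA 1 0 ![x] ![] = CP 1 0 ![x] ![] := by
  obtain ⟨β, hβ, Zs, Ze, hZs, -, -, hdom⟩ := hU
  obtain ⟨ho, hc, hb⟩ := htri
  have hinj : Function.Injective (Sum.elim ![x] (![] : Fin 0 → ℂ)) := by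
    rintro (i | i) (k | k) _
    · rw [Subsingleton.elim i k]
    · exact k.elim0
    · exact i.elim0
    · exact k.elim0
  have hxx : ∀ i : Fin 1, (![x] : Fin 1 → ℂ) i ∈ tri := by intro i; simpa using hx
  have hyy : ∀ i : Fin 0, (![] : Fin 0 → ℂ) i ∈ tri := fun i => i.elim0
  have tA := hdom tri ho hc hb bcA CA hA 1 0 ![x] ![] Fin.elim0 (by norm_num) hxx hyy hinj
  have tB := hdom tri ho hc hb bcB CA (isCorrLimit_B hA) 1 0 ![x] ![] Fin.elim0 (by norm_num)
    hxx hyy hinj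
  have tP := hdom tri ho hc hb bcPlus CP hP 1 0 ![x] ![] Fin.elim0 (by norm_num) hxx hyy hinj
  simp only [pow_one, pow_zero, mul_one] at tA tB tP
  obtain ⟨e, he0, he1, hcomp⟩ := mag_tri_compare hJ hl hβ
  have hev := site_mem hx
  -- the upper comparison
  have hAP : Zs * CA 1 0 ![x] ![] ≤ Zs * CP 1 0 ![x] ![] := by
    refine le_of_tendsto_of_tendsto tA tP ?_
    filter_upwards [hev] with a ha
    obtain ⟨ha0, h8, hmem, hsum⟩ := ha
    rw [corr_one J lam β bcA x Fin.elim0 hmem rfl,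
      corr_one J lam β bcPlus x Fin.elim0 hmem rfl]
    refine mul_le_mul_of_nonneg_left ?_ (Real.rpow_nonneg ha0.le _)
    exact mag_mono (cplK_nonneg hJ.le hl.le hβ.le _)
      (fld_mono hJ.le hl.le hβ.le (fun y => le_top)) _
  have hB : (1 - e) * (Zs * CA 1 0 ![x] ![]) + e * (Zs * CP 1 0 ![x] ![]) ≤
      Zs * CA 1 0 ![x] ![] := by
    refine le_of_tendsto_of_tendsto ((tA.const_mul (1 - e)).add (tP.const_mul e)) tB ?_
    filter_upwards [hev] with a ha
    obtain ⟨ha0, h8, hmem, hsum⟩ := ha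
    rw [corr_one J lam β bcA x Fin.elim0 hmem rfl,
      corr_one J lam β bcB x Fin.elim0 hmem rfl,
      corr_one J lam β bcPlus x Fin.elim0 hmem rfl]
    have h := mul_le_mul_of_nonneg_left (hcomp a ha0 h8 ⟨site a x, hmem⟩ hsum)
      (Real.rpow_nonneg ha0.le (-(1 / 8)))
    linarith
  have h1 : Zs * CA 1 0 ![x] ![] = Zs * CP 1 0 ![x] ![] := by
    apply le_antisymm hAP
    have h2 : e * (Zs * CP 1 0 ![x] ![]) ≤ e * (Zs * CA 1 0 ![x] ![]) := by linarith
    exact le_of_mul_le_mul_left h2 he0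
  exact mul_left_cancel₀ hZs h1

theorem isOpen_tri : IsOpen tri := by
  have : tri = {z : ℂ | -1 < z.re} ∩ ({z : ℂ | -1 < z.im} ∩ {z : ℂ | z.re + z.im < 1}) := by
    ext z; simp [tri]
  rw [this]
  exact (isOpen_lt continuous_const Complex.continuous_re).inter
    ((isOpen_lt continuous_const Complex.continuous_im).inter
      (isOpen_lt (Complex.continuous_re.add Complex.continuous_im) continuous_const))

theorem isConnected_tri : IsConnected tri := by
  have hconv : Convex ℝ tri := by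
    intro z hz w hw s t hs ht hst
    obtain ⟨a1, a2, a3⟩ := hz
    obtain ⟨b1, b2, b3⟩ := hw
    have hs' : s = 1 - t := by linarith
    subst hs'
    simp only [tri, Set.mem_ofPred_eq, Complex.add_re, Complex.add_im, Complex.smul_re,
      Complex.smul_im, smul_eq_mul]
    refine ⟨?_, ?_, ?_⟩
    · rcases ht.eq_or_lt with h | h
      · subst h; linarith
      · nlinarith
    · rcases ht.eq_or_lt with h | h
      · subst h; linarith
      · nlinarith
    · rcases ht.eq_or_lt with h | h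
      · subst h; linarith
      · nlinarith
  refine ⟨⟨0, ?_⟩, hconv.isPreconnected⟩
  simp [tri]

theorem isBounded_tri : Bornology.IsBounded tri := by
  rw [isBounded_iff_forall_norm_le]
  refine ⟨6, fun z hz => ?_⟩
  obtain ⟨a1, a2, a3⟩ := hz
  refine (Complex.norm_le_abs_re_add_abs_im z).trans ?_
  have h1 : |z.re| ≤ 2 := abs_le.2 ⟨by linarith, by linarith⟩
  have h2 : |z.im| ≤ 2 := abs_le.2 ⟨by linarith, by linarith⟩
  linarith

end Vale.Agent.P144
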