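import Vale.Agent.P144.Concave

set_option linter.unusedSectionVars false

namespace Vale.Agent.P144

section Fkg
variable {ι : Type*} [Fintype ι] [DecidableEq ι]

theorem spin_mono {p q : Bool} (h : p ≤ q) : spin p ≤ spin q := by
  cases p <;> cases q <;> first | exact absurd h (by decide) | (norm_num [spin])

theorem spin_le_one (p : Bool) : spin p ≤ 1 := by cases p <;> norm_num [spin]
theorem neg_one_le_spin (p : Bool) : -1 ≤ spin p := by cases p <;> norm_num [spin]
theorem spin_not (p : Bool) : spin (!p) = -spin p := by cases p <;> simp [spin]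
theorem spin_sq (p : Bool) : spin p * spin p = 1 := by cases p <;> simp [spin]

theorem spin_pair_supermod (p q p' q' : Bool) :
    spin p * spin q + spin p' * spin q' ≤ spin (p ⊓ p') * spin (q ⊓ q') +
      spin (p ⊔ p') * spin (q ⊔ q') := by
  cases p <;> cases q <;> cases p' <;> cases q' <;> simp [spin] <;> norm_num

theorem spin_mod (p p' : Bool) : spin p + spin p' = spin (p ⊓ p') + spin (p ⊔ p') := by
  cases p <;> cases p' <;> simp [spin]

theorem ham_supermod {K : ι → ι → ℝ} (hK : ∀ i j, 0 ≤ K i j) (h : ι → ℝ) (a b : ι → Bool) :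
    ham K h a + ham K h b ≤ ham K h (a ⊓ b) + ham K h (a ⊔ b) := by
  unfold ham
  have h1 : ∑ i, ∑ j, K i j * (spin (a i) * spin (a j)) +
      ∑ i, ∑ j, K i j * (spin (b i) * spin (b j)) ≤
      ∑ i, ∑ j, K i j * (spin ((a ⊓ b) i) * spin ((a ⊓ b) j)) +
      ∑ i, ∑ j, K i j * (spin ((a ⊔ b) i) * spin ((a ⊔ b) j)) := by
    simp only [← Finset.sum_add_distrib, ← mul_add]
    refine Finset.sum_le_sum fun i _ => Finset.sum_le_sum fun j _ => ?_
    exact mul_le_mul_of_nonneg_left (spin_pair_supermod _ _ _ _) (hK i j)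
  have h2 : ∑ i, h i * spin (a i) + ∑ i, h i * spin (b i) =
      ∑ i, h i * spin ((a ⊓ b) i) + ∑ i, h i * spin ((a ⊔ b) i) := by
    simp only [← Finset.sum_add_distrib, ← mul_add]
    exact Finset.sum_congr rfl fun i _ => by rw [spin_mod]; rfl
  linarith

theorem weight_lattice {K : ι → ι → ℝ} (hK : ∀ i j, 0 ≤ K i j) (h : ι → ℝ) (a b : ι → Bool) :
    Real.exp (ham K h a) * Real.exp (ham K h b) ≤
      Real.exp (ham K h (a ⊓ b)) * Real.exp (ham K h (a ⊔ b)) := by
  rw [← Real.exp_add, ← Real.exp_add]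
  exact Real.exp_le_exp.2 (ham_supermod hK h a b)

/-- General comparison: if `w' = w ρ` in the sense of sums of functions `1, σ_x`, with `ρ`
monotone, then the magnetisation increases. -/
theorem mag_le_of_rho {K : ι → ι → ℝ} (hK : ∀ i j, 0 ≤ K i j) (h h' : ι → ℝ) (x : ι)
    (ρ : (ι → Bool) → ℝ) (hρ0 : ∀ σ, 0 ≤ ρ σ) (hρ : Monotone ρ)
    (e1 : usum K h' (fun _ => 1) = usum K h ρ)
    (e2 : usum K h' (fun σ => spin (σ x)) = usum K h (fun σ => spin (σ x) * ρ σ)) :
    mag K h x ≤ mag K h' x := by
  have hf := fkg (μ := fun σ => Real.exp (ham K h σ)) (f := fun σ : ι → Bool => spin (σ x) + 1)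
    (g := ρ) (fun σ => (Real.exp_pos _).le) (fun σ => by
      have := neg_one_le_spin (σ x); simp only [Pi.zero_apply]; linarith) hρ0
    (fun a b hab => by
      have := spin_mono (hab x); simp only; linarith) hρ (weight_lattice hK h)
  have hZ := usum_one_pos K h
  have hZ' := usum_one_pos K h'
  have a1 : ∑ σ, Real.exp (ham K h σ) * (spin (σ x) + 1) =
      usum K h (fun σ => spin (σ x)) + usum K h (fun _ => 1) := by
    simp only [usum, mul_add, Finset.sum_add_distrib]
  have a2 : ∑ σ, Real.exp (ham K h σ) * ((spin (σ x) + 1) * ρ σ) =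
      usum K h' (fun σ => spin (σ x)) + usum K h' (fun _ => 1) := by
    rw [e1, e2]
    simp only [usum, ← Finset.sum_add_distrib]
    exact Finset.sum_congr rfl fun σ _ => by ring
  have a3 : ∑ σ, Real.exp (ham K h σ) * ρ σ = usum K h' (fun _ => 1) := by rw [e1]; rfl
  have a4 : ∑ σ, Real.exp (ham K h σ) = usum K h (fun _ => 1) := by simp [usum]
  rw [a1, a2, a3, a4] at hf
  unfold mag
  rw [div_le_div_iff₀ hZ hZ']
  nlinarith [hf]

theorem mag_mono {K : ι → ι → ℝ} (hK : ∀ i j, 0 ≤ K i j) {h h' : ι → ℝ} (hh : ∀ i, h i ≤ h' i)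
    (x : ι) : mag K h x ≤ mag K h' x := by
  have key : ∀ σ : ι → Bool, ham K h' σ = ham K h σ + lin (fun i => h' i - h i) σ := by
    intro σ
    have := ham_add K h (fun i => h' i - h i) 1 σ
    simpa using this
  apply mag_le_of_rho hK h h' x (fun σ => Real.exp (lin (fun i => h' i - h i) σ))
  · exact fun σ => (Real.exp_pos _).le
  · intro a b hab
    apply Real.exp_le_exp.2
    unfold lin
    exact Finset.sum_le_sum fun i _ =>
      mul_le_mul_of_nonneg_left (spin_mono (hab i)) (sub_nonneg.2 (hh i))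
  · simp only [usum, key, Real.exp_add]
    exact Finset.sum_congr rfl fun σ _ => by ring
  · simp only [usum, key, Real.exp_add]
    exact Finset.sum_congr rfl fun σ _ => by ring

/-- local field at `s` coming from the other spins -/
noncomputable def loc (K : ι → ι → ℝ) (s : ι) (σ : ι → Bool) : ℝ :=
  ∑ j ∈ Finset.univ.erase s, (K s j + K j s) * spin (σ j)

def flip (s : ι) (σ : ι → Bool) : ι → Bool := Function.update σ s (!σ s)

theorem flip_flip (s : ι) (σ : ι → Bool) : flip s (flip s σ) = σ := by
  funext i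
  by_cases h : i = s
  · subst h; simp [flip]
  · simp [flip, h]

theorem flip_ne {s i : ι} (h : i ≠ s) (σ : ι → Bool) : flip s σ i = σ i := by simp [flip, h]

theorem spin_flip (s i : ι) (σ : ι → Bool) :
    spin (flip s σ i) = spin (σ i) - 2 * (if i = s then spin (σ s) else 0) := by
  by_cases h : i = s
  · subst h; simp [flip, spin_not]; ring
  · simp [flip, h]

theorem loc_flip (K : ι → ι → ℝ) (s : ι) (σ : ι → Bool) : loc K s (flip s σ) = loc K s σ := by
  unfold loc
  exact Finset.sum_congr rfl fun j hj => by rw [flip_ne (Finset.ne_of_mem_erase hj)]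

theorem ham_flip (K : ι → ι → ℝ) (h : ι → ℝ) (s : ι) (σ : ι → Bool) :
    ham K h (flip s σ) = ham K h σ - 2 * (spin (σ s) * (h s + loc K s σ)) := by
  have hl : loc K s σ = ∑ j, (K s j + K j s) * spin (σ j) - (K s s + K s s) * spin (σ s) := by
    unfold loc
    rw [← Finset.add_sum_erase Finset.univ _ (Finset.mem_univ s)]
    ring
  have e2 : ∀ i j, K i j * (spin (flip s σ i) * spin (flip s σ j)) =
      K i j * (spin (σ i) * spin (σ j)) - (if i = s then 2 * (K s j * spin (σ s) * spin (σ j)) else 0)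
      - (if j = s then 2 * (K i s * spin (σ i) * spin (σ s)) else 0)
      + (if i = s then (if j = s then 4 * K s s else 0) else 0) := by
    intro i j
    rw [spin_flip, spin_flip]
    have hs := spin_sq (σ s)
    split_ifs with h1 h2 h2
    · subst h1; subst h2; linear_combination (4 * K j j) * hs
    · subst h1; ring
    · subst h2; ring
    · ring
  have e3 : ∀ i, h i * spin (flip s σ i) = h i * spin (σ i) -
      (if i = s then 2 * (h s * spin (σ s)) else 0) := by
    intro i
    rw [spin_flip]
    split_ifs with h1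
    · subst h1; ring
    · ring
  unfold ham
  simp only [e2, e3, Finset.sum_add_distrib, Finset.sum_sub_distrib, Finset.sum_ite_eq',
    Finset.mem_univ, if_true]
  have e4 : ∑ x, ∑ x_1, (if x = s then 2 * (K s x_1 * spin (σ s) * spin (σ x_1)) else 0) =
      2 * spin (σ s) * ∑ j, K s j * spin (σ j) := by
    rw [Finset.sum_comm]
    simp only [Finset.sum_ite_eq', Finset.mem_univ, if_true, Finset.mul_sum]
    exact Finset.sum_congr rfl fun j _ => by ring
  have e5 : ∑ x, 2 * (K x s * spin (σ x) * spin (σ s)) = 2 * spin (σ s) * ∑ j, K j s * spin (σ j) := by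
    simp only [Finset.mul_sum]
    exact Finset.sum_congr rfl fun j _ => by ring
  have e6 : ∑ x, ∑ x_1, (if x = s then (if x_1 = s then 4 * K s s else 0) else 0) = 4 * K s s := by
    rw [Finset.sum_comm]
    simp
  rw [e4, e5, e6, hl]
  simp only [add_mul, Finset.sum_add_distrib]
  have hs := spin_sq (σ s)
  linear_combination (-4 * K s s) * hs

theorem sum_flip (s : ι) (F : (ι → Bool) → ℝ) : ∑ σ, F (flip s σ) = ∑ σ, F σ := by
  apply Fintype.sum_bijective (flip s)
  · exact Function.Involutive.bijective (flip_flip s)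
  · intro σ; rfl

/-- if two integrands agree after adding the value at the flipped configuration, they have the
same sum -/
theorem sum_eq_of_flip (s : ι) (F G : (ι → Bool) → ℝ)
    (h : ∀ σ, F σ + F (flip s σ) = G σ + G (flip s σ)) : ∑ σ, F σ = ∑ σ, G σ := by
  have h1 : ∑ σ, (F σ + F (flip s σ)) = ∑ σ, (G σ + G (flip s σ)) := Finset.sum_congr rfl fun σ _ => h σ
  rw [Finset.sum_add_distrib, Finset.sum_add_distrib, sum_flip, sum_flip] at h1
  linarith

theorem cosh_ident (a D X Y : ℝ) :
    Real.cosh (a + D + Y) * Real.cosh (a + X) - Real.cosh (a + Y) * Real.cosh (a + D + X) =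
      Real.sinh D * Real.sinh (Y - X) := by
  simp only [Real.cosh_add, Real.sinh_sub, Real.sinh_add]
  have h1 := Real.cosh_sq a
  ring_nf
  have h1 := Real.cosh_sq a
  rw [h1]
  ring

end Fkg

end Vale.Agent.P144
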