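import Vale.Agent.P144.Field

set_option linter.unusedSectionVars false
set_option linter.unusedSimpArgs false

namespace Vale.Agent.P144

theorem mem_sites_tri {a : ℝ} (ha : 0 < a) (x : ℤ × ℤ) :
    x ∈ sites tri a ↔ (-1 < a * x.1 ∧ -1 < a * x.2 ∧ a * x.1 + a * x.2 < 1) := by
  have hfin : {x : ℤ × ℤ | (⟨a * x.1, a * x.2⟩ : ℂ) ∈ tri}.Finite := by
    apply Set.Finite.subset ((Set.finite_Icc (-⌈3 / a⌉) ⌈3 / a⌉).prod
      (Set.finite_Icc (-⌈3 / a⌉) ⌈3 / a⌉))
    rintro ⟨i, j⟩ hx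
    simp only [tri, Set.mem_ofPred_eq] at hx
    obtain ⟨h1, h2, h3⟩ := hx
    have hc : 3 / a ≤ (⌈3 / a⌉ : ℝ) := Int.le_ceil _
    have hc' : 3 ≤ a * (⌈3 / a⌉ : ℝ) := by
      rw [div_le_iff₀ ha] at hc; linarith
    have e1 : -(⌈3 / a⌉ : ℝ) ≤ i := by
      by_contra h; push Not at h; nlinarith
    have e2 : (i : ℝ) ≤ ⌈3 / a⌉ := by
      by_contra h; push Not at h; nlinarith
    have e3 : -(⌈3 / a⌉ : ℝ) ≤ j := by
      by_contra h; push Not at h; nlinarith
    have e4 : (j : ℝ) ≤ ⌈3 / a⌉ := by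
      by_contra h; push Not at h; nlinarith
    simp only [Set.mem_prod, Set.mem_Icc]
    exact ⟨⟨by exact_mod_cast e1, by exact_mod_cast e2⟩, ⟨by exact_mod_cast e3, by exact_mod_cast e4⟩⟩
  unfold sites
  rw [dif_pos hfin, Set.Finite.mem_toFinset]
  rfl

theorem sum_lt_of_mem {a : ℝ} (ha : 0 < a) {x : ℤ × ℤ} (hx : x ∈ sites tri a) :
    x.1 + x.2 < ⌈1 / a⌉ := by
  obtain ⟨_, _, h3⟩ := (mem_sites_tri ha x).1 hx
  rw [Int.lt_ceil, lt_div_iff₀ ha]
  push_cast
  linarith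

theorem not_mem_of_le {a : ℝ} (ha : 0 < a) {x : ℤ × ℤ} (hx : ⌈1 / a⌉ ≤ x.1 + x.2) :
    x ∉ sites tri a := fun h => by
  have := sum_lt_of_mem ha h; omega

theorem out_ge (Λ : Finset (ℤ × ℤ)) (τ : Config) (y : ℤ × ℤ) : -1 ≤ out Λ τ y := by
  unfold out; split_ifs
  · norm_num
  · exact neg_one_le_spin _

theorem out_le (Λ : Finset (ℤ × ℤ)) (τ : Config) (y : ℤ × ℤ) : out Λ τ y ≤ 1 := by
  unfold out; split_ifs
  · norm_num
  · exact spin_le_one _

theorem out_mono {Λ : Finset (ℤ × ℤ)} {τ τ' : Config} (h : ∀ y, τ y ≤ τ' y) (y : ℤ × ℤ) :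
    out Λ τ y ≤ out Λ τ' y := by
  unfold out; split_ifs
  · exact le_rfl
  · exact spin_mono (h y)

theorem tauA_eq_true {a : ℝ} {y : ℤ × ℤ} (h : y.1 + y.2 < ⌈1 / a⌉) : tauA a y = true := by
  unfold tauA
  simp only [Bool.not_eq_true', decide_eq_false_iff_not]
  rintro ⟨_, ⟨h1, _⟩ | ⟨h1, _⟩⟩ <;> omega

theorem tauA_even {a : ℝ} {y : ℤ × ℤ} (h : Even y.1) : tauA a y = true := by
  unfold tauA
  simp only [Bool.not_eq_true', decide_eq_false_iff_not]
  rintro ⟨h1, _⟩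
  exact (Int.not_odd_iff_even.2 h) h1

theorem tauA_le_tauB (a : ℝ) (y : ℤ × ℤ) : tauA a y ≤ tauB a y := by
  rcases hB : tauB a y with _ | _
  · have : tauA a y = false := by
      unfold tauB at hB
      unfold tauA
      simp only [Bool.not_eq_false', decide_eq_true_eq] at hB ⊢
      exact ⟨hB.1, Or.inl hB.2⟩
    rw [this]
  · exact le_top

section
variable {a : ℝ} (ha : 0 < a)
include ha

theorem outA_nonneg_of_lt {y : ℤ × ℤ} (h : y.1 + y.2 < ⌈1 / a⌉) :
    0 ≤ out (sites tri a) (tauA a) y := by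
  unfold out; split_ifs
  · exact le_rfl
  · rw [tauA_eq_true h]; norm_num [spin]

theorem outA_even {y : ℤ × ℤ} (h : ⌈1 / a⌉ ≤ y.1 + y.2) (he : Even y.1) :
    out (sites tri a) (tauA a) y = 1 := by
  unfold out
  rw [if_neg (not_mem_of_le ha h), tauA_even he]; norm_num [spin]

/-- the alternating layers give no negative field -/
theorem outA_pair (x : ℤ × ℤ) : 0 ≤ out (sites tri a) (tauA a) (x + (1, 0)) +
    out (sites tri a) (tauA a) (x + (0, 1)) := by
  have g1 := out_ge (sites tri a) (tauA a) (x + (1, 0))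
  have g2 := out_ge (sites tri a) (tauA a) (x + (0, 1))
  by_cases h : x.1 + x.2 + 1 < ⌈1 / a⌉
  · have := outA_nonneg_of_lt ha (y := x + (1, 0)) (by simp only [Prod.fst_add, Prod.snd_add, Prod.fst_sub, Prod.snd_sub]; omega)
    have := outA_nonneg_of_lt ha (y := x + (0, 1)) (by simp only [Prod.fst_add, Prod.snd_add, Prod.fst_sub, Prod.snd_sub]; omega)
    linarith
  · rcases Int.even_or_odd x.1 with he | ho
    · have := outA_even ha (y := x + (0, 1)) (by simp only [Prod.fst_add, Prod.snd_add, Prod.fst_sub, Prod.snd_sub]; omega) (by simpa using he)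
      linarith
    · have := outA_even ha (y := x + (1, 0)) (by simp only [Prod.fst_add, Prod.snd_add, Prod.fst_sub, Prod.snd_sub]; omega) (by simpa using ho.add_one)
      linarith

theorem outA_triple (x : ℤ × ℤ) : 0 ≤ 2 * out (sites tri a) (tauA a) (x + (1, 1)) +
    out (sites tri a) (tauA a) (x + (2, 0)) + out (sites tri a) (tauA a) (x + (0, 2)) := by
  have g1 := out_ge (sites tri a) (tauA a) (x + (1, 1))
  have g2 := out_ge (sites tri a) (tauA a) (x + (2, 0))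
  have g3 := out_ge (sites tri a) (tauA a) (x + (0, 2))
  by_cases h : x.1 + x.2 + 2 < ⌈1 / a⌉
  · have := outA_nonneg_of_lt ha (y := x + (1, 1)) (by simp only [Prod.fst_add, Prod.snd_add, Prod.fst_sub, Prod.snd_sub]; omega)
    have := outA_nonneg_of_lt ha (y := x + (2, 0)) (by simp only [Prod.fst_add, Prod.snd_add, Prod.fst_sub, Prod.snd_sub]; omega)
    have := outA_nonneg_of_lt ha (y := x + (0, 2)) (by simp only [Prod.fst_add, Prod.snd_add, Prod.fst_sub, Prod.snd_sub]; omega)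
    linarith
  · rcases Int.even_or_odd x.1 with he | ho
    · have := outA_even ha (y := x + (0, 2)) (by simp only [Prod.fst_add, Prod.snd_add, Prod.fst_sub, Prod.snd_sub]; omega) (by simpa using he)
      have := outA_even ha (y := x + (2, 0)) (by simp only [Prod.fst_add, Prod.snd_add, Prod.fst_sub, Prod.snd_sub]; omega) (by
        simpa using he.add (by decide : Even (2:ℤ)))
      linarith
    · have := outA_even ha (y := x + (1, 1)) (by simp only [Prod.fst_add, Prod.snd_add, Prod.fst_sub, Prod.snd_sub]; omega) (by simpa using ho.add_one)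
      linarith

theorem fldA_nonneg {J lam β : ℝ} (hJ : 0 ≤ J) (hl : 0 ≤ lam) (hβ : 0 ≤ β)
    (x : sites tri a) : 0 ≤ fld J lam β (sites tri a) (tauA a) x := by
  have hx := sum_lt_of_mem ha x.2
  unfold fld
  rw [sum_wd]
  have p1 := outA_pair ha x
  have p2 := outA_triple ha x
  have q1 := outA_nonneg_of_lt ha (y := (x : ℤ × ℤ) - (1, 0)) (by simp only [Prod.fst_add, Prod.snd_add, Prod.fst_sub, Prod.snd_sub]; omega)
  have q2 := outA_nonneg_of_lt ha (y := (x : ℤ × ℤ) - (0, 1)) (by simp only [Prod.fst_add, Prod.snd_add, Prod.fst_sub, Prod.snd_sub]; omega)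
  have q3 := outA_nonneg_of_lt ha (y := (x : ℤ × ℤ) - (1, 1)) (by simp only [Prod.fst_add, Prod.snd_add, Prod.fst_sub, Prod.snd_sub]; omega)
  have q4 := outA_nonneg_of_lt ha (y := (x : ℤ × ℤ) - (1, -1)) (by simp only [Prod.fst_add, Prod.snd_add, Prod.fst_sub, Prod.snd_sub]; omega)
  have q5 := outA_nonneg_of_lt ha (y := (x : ℤ × ℤ) + (1, -1)) (by simp only [Prod.fst_add, Prod.snd_add, Prod.fst_sub, Prod.snd_sub]; omega)
  have q6 := outA_nonneg_of_lt ha (y := (x : ℤ × ℤ) - (2, 0)) (by simp only [Prod.fst_add, Prod.snd_add, Prod.fst_sub, Prod.snd_sub]; omega)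
  have q7 := outA_nonneg_of_lt ha (y := (x : ℤ × ℤ) - (0, 2)) (by simp only [Prod.fst_add, Prod.snd_add, Prod.fst_sub, Prod.snd_sub]; omega)
  have hβJ := mul_nonneg hβ hJ
  have hβl := mul_nonneg hβ hl
  have r1 := mul_nonneg hβJ (add_nonneg p1 (add_nonneg q1 q2))
  have r2 := mul_nonneg hβl (add_nonneg p2 (add_nonneg (add_nonneg (mul_nonneg zero_le_two q3)
    (mul_nonneg zero_le_two (add_nonneg q4 q5))) (add_nonneg q6 q7)))
  nlinarith [r1, r2]

end

theorem fld_mono {J lam β : ℝ} (hJ : 0 ≤ J) (hl : 0 ≤ lam) (hβ : 0 ≤ β) {Λ : Finset (ℤ × ℤ)}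
    {τ τ' : Config} (h : ∀ y, τ y ≤ τ' y) (x : Λ) :
    fld J lam β Λ τ x ≤ fld J lam β Λ τ' x := by
  unfold fld
  refine Finset.sum_le_sum fun d _ => mul_le_mul_of_nonneg_left
    (add_le_add (out_mono h _) (out_mono h _)) ?_
  unfold wd
  have hβJ := mul_nonneg hβ hJ
  have hβl := mul_nonneg hβ hl
  split_ifs <;> positivity

theorem wd_nonneg {J lam β : ℝ} (hJ : 0 ≤ J) (hl : 0 ≤ lam) (hβ : 0 ≤ β) (d : ℤ × ℤ) :
    0 ≤ wd J lam β d := by
  unfold wd
  have hβJ := mul_nonneg hβ hJ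
  have hβl := mul_nonneg hβ hl
  split_ifs <;> positivity

theorem cplK_nonneg {J lam β : ℝ} (hJ : 0 ≤ J) (hl : 0 ≤ lam) (hβ : 0 ≤ β)
    (Λ : Finset (ℤ × ℤ)) (x y : Λ) : 0 ≤ cplK J lam β Λ x y := by
  unfold cplK
  refine Finset.sum_nonneg fun d _ => ?_
  split_ifs
  · exact wd_nonneg hJ hl hβ d
  · exact le_rfl

/-- total weight bound -/
noncomputable def Qtot (J lam β : ℝ) : ℝ := 4 * (β * J) + 12 * (β * lam)

theorem fld_le {J lam β : ℝ} (hJ : 0 ≤ J) (hl : 0 ≤ lam) (hβ : 0 ≤ β) (Λ : Finset (ℤ × ℤ))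
    (τ : Config) (x : Λ) : fld J lam β Λ τ x ≤ Qtot J lam β := by
  unfold fld
  have : ∀ d ∈ disp, wd J lam β d * (out Λ τ (x + d) + out Λ τ (x - d)) ≤ wd J lam β d * 2 := by
    intro d _
    refine mul_le_mul_of_nonneg_left ?_ (wd_nonneg hJ hl hβ d)
    have := out_le Λ τ (x + d)
    have := out_le Λ τ (x - d)
    linarith
  refine (Finset.sum_le_sum this).trans ?_
  rw [sum_wd J lam β (fun _ => 2)]
  unfold Qtot
  linarith

theorem sum_cplK_le {J lam β : ℝ} (hJ : 0 ≤ J) (hl : 0 ≤ lam) (hβ : 0 ≤ β) (Λ : Finset (ℤ × ℤ))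
    (x : Λ) : ∑ y, (cplK J lam β Λ x y + cplK J lam β Λ y x) ≤ Qtot J lam β := by
  rw [Finset.sum_add_distrib]
  have key : ∀ (f : ℤ × ℤ → Λ → ℤ × ℤ), (∀ d, Function.Injective (f d)) → ∀ z : ℤ × ℤ,
      ∀ d, ∑ y : Λ, (if f d y = z then wd J lam β d else 0) ≤ wd J lam β d := by
    intro f hf z d
    by_cases h : ∃ y, f d y = z
    · obtain ⟨y, hy⟩ := h
      rw [Finset.sum_eq_single y]
      · simp [hy]
      · intro y' _ hy'
        have : f d y' ≠ z := fun h => hy' (hf d (h.trans hy.symm))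
        simp [this]
      · simp
    · push Not at h
      rw [Finset.sum_eq_zero]
      · exact wd_nonneg hJ hl hβ d
      · intro y _; simp [h y]
  have s1 : ∑ y, cplK J lam β Λ x y ≤ ∑ d ∈ disp, wd J lam β d := by
    unfold cplK
    rw [Finset.sum_comm]
    refine Finset.sum_le_sum fun d _ => ?_
    exact key (fun _ y => (y : ℤ × ℤ)) (fun _ => Subtype.coe_injective) (x + d) d
  have s2 : ∑ y, cplK J lam β Λ y x ≤ ∑ d ∈ disp, wd J lam β d := by
    unfold cplK
    rw [Finset.sum_comm]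
    refine Finset.sum_le_sum fun d _ => ?_
    have := key (fun d y => (y : ℤ × ℤ) + d) (fun d y y' h => Subtype.ext (add_right_cancel h)) x d
    refine le_trans (le_of_eq ?_) this
    refine Finset.sum_congr rfl fun y _ => ?_
    by_cases h : (x : ℤ × ℤ) = y + d
    · rw [if_pos h, if_pos h.symm]
    · rw [if_neg h, if_neg (fun h' => h h'.symm)]
  have s3 : ∑ d ∈ disp, wd J lam β d = 2 * (β * J) + 6 * (β * lam) := by
    have := sum_wd J lam β (fun _ => 1)
    simp only [mul_one] at this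
    rw [this]; ring
  unfold Qtot
  linarith

end Vale.Agent.P144
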