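import Vale.Agent.P144.Cone

namespace Vale.Agent.P144

section Ghs
variable {ι : Type*} [Fintype ι] [DecidableEq ι]

/-- Exponent of the Gibbs weight of a finite Ising model with pair couplings and fields. -/
noncomputable def ham (K : ι → ι → ℝ) (h : ι → ℝ) (σ : ι → Bool) : ℝ :=
  ∑ i, ∑ j, K i j * (spin (σ i) * spin (σ j)) + ∑ i, h i * spin (σ i)

/-- linear statistic -/
noncomputable def lin (k : ι → ℝ) (σ : ι → Bool) : ℝ := ∑ j, k j * spin (σ j)

/-- unnormalised sums -/
noncomputable def usum (K : ι → ι → ℝ) (h : ι → ℝ) (f : (ι → Bool) → ℝ) : ℝ :=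
  ∑ σ, Real.exp (ham K h σ) * f σ

/-- the magnetisation at `x` -/
noncomputable def mag (K : ι → ι → ℝ) (h : ι → ℝ) (x : ι) : ℝ :=
  usum K h (fun σ => spin (σ x)) / usum K h (fun _ => 1)

theorem usum_one_pos (K : ι → ι → ℝ) (h : ι → ℝ) : 0 < usum K h (fun _ => 1) := by
  unfold usum
  apply Finset.sum_pos
  · intro σ _; positivity
  · exact Finset.univ_nonempty

def e4 (ι : Type*) : (ι → Q4) ≃ ((ι → Bool) × (ι → Bool)) × ((ι → Bool) × (ι → Bool)) where
  toFun q := ((fun i => (q i).1.1, fun i => (q i).1.2), (fun i => (q i).2.1, fun i => (q i).2.2))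
  invFun p := fun i => ((p.1.1 i, p.1.2 i), (p.2.1 i, p.2.2 i))
  left_inv q := rfl
  right_inv p := rfl

/-- exponent in rotated variables -/
noncomputable def hq (K : ι → ι → ℝ) (h : ι → ℝ) (q : ι → Q4) : ℝ :=
  (∑ i, ∑ j, K i j * (qa (q i) * qa (q j) + qb (q i) * qb (q j) + qc (q i) * qc (q j) +
    qd (q i) * qd (q j))) + ∑ i, (2 * h i) * qa (q i)

theorem hq_mem_cone {K : ι → ι → ℝ} {h : ι → ℝ} (hK : ∀ i j, 0 ≤ K i j) (hh : ∀ i, 0 ≤ h i) :
    hq K h ∈ cone ι := by
  unfold hq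
  apply cone_add
  · apply cone_sum
    intro i _
    apply cone_sum
    intro j _
    apply cone_smul (hK i j)
    exact cone_add (cone_add (cone_add (cone_mul (cone_a i) (cone_a j))
      (cone_mul (cone_b i) (cone_b j))) (cone_mul (cone_c i) (cone_c j)))
      (cone_mul (cone_d i) (cone_d j))
  · apply cone_sum
    intro i _
    exact cone_smul (by have := hh i; positivity) (cone_a i)

theorem hq_eq (K : ι → ι → ℝ) (h : ι → ℝ) (A B : (ι → Bool) × (ι → Bool)) :
    hq K h ((e4 ι).symm (A, B)) = (ham K h A.1 + ham K h A.2) + (ham K h B.1 + ham K h B.2) := by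
  unfold hq ham
  have h1 : ∀ i j, K i j * (qa ((e4 ι).symm (A, B) i) * qa ((e4 ι).symm (A, B) j) +
      qb ((e4 ι).symm (A, B) i) * qb ((e4 ι).symm (A, B) j) +
      qc ((e4 ι).symm (A, B) i) * qc ((e4 ι).symm (A, B) j) +
      qd ((e4 ι).symm (A, B) i) * qd ((e4 ι).symm (A, B) j)) =
      K i j * (spin (A.1 i) * spin (A.1 j)) + K i j * (spin (A.2 i) * spin (A.2 j)) +
      K i j * (spin (B.1 i) * spin (B.1 j)) + K i j * (spin (B.2 i) * spin (B.2 j)) := by
    intro i j
    simp only [qa, qb, qc, qd, e4, Equiv.coe_fn_symm_mk]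
    ring
  have h2 : ∀ i, (2 * h i) * qa ((e4 ι).symm (A, B) i) =
      h i * spin (A.1 i) + h i * spin (A.2 i) + h i * spin (B.1 i) + h i * spin (B.2 i) := by
    intro i
    simp only [qa, e4, Equiv.coe_fn_symm_mk]
    ring
  simp only [h1, h2, Finset.sum_add_distrib]
  ring

theorem ghs_cumulant {K : ι → ι → ℝ} {h : ι → ℝ} (hK : ∀ i j, 0 ≤ K i j) (hh : ∀ i, 0 ≤ h i)
    (x : ι) {k : ι → ℝ} (hk : ∀ i, 0 ≤ k i) :
    usum K h (fun σ => spin (σ x) * lin k σ * lin k σ) * usum K h (fun _ => 1) ^ 2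
      - usum K h (fun σ => spin (σ x)) * usum K h (fun σ => lin k σ * lin k σ)
        * usum K h (fun _ => 1)
      - 2 * usum K h (fun σ => spin (σ x) * lin k σ) * usum K h (fun _ => 1)
        * usum K h (fun σ => lin k σ)
      + 2 * usum K h (fun σ => spin (σ x)) * usum K h (fun σ => lin k σ) ^ 2 ≤ 0 := by
  -- positivity in rotated variables
  have hg : (fun q : ι → Q4 => qb (q x) * (∑ j, k j * qc (q j)) * (∑ j, k j * qd (q j))) ∈ cone ι := by
    refine cone_mul (cone_mul (cone_b x) ?_) ?_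
    · exact cone_sum _ fun j _ => cone_smul (hk j) (cone_c j)
    · exact cone_sum _ fun j _ => cone_smul (hk j) (cone_d j)
  have hpos := cone_exp_nonneg hg (hq_mem_cone hK hh)
  -- change of variables
  rw [← (e4 ι).symm.sum_comp, Fintype.sum_prod_type] at hpos
  set w : (ι → Bool) → ℝ := fun σ => Real.exp (ham K h σ) with hw
  set X : (ι → Bool) → ℝ := fun σ => spin (σ x) with hX
  set E : (ι → Bool) → ℝ := lin k with hE
  have hc : ∀ A B : (ι → Bool) × (ι → Bool),
      (∑ j, k j * qc ((e4 ι).symm (A, B) j)) = (E A.1 - E A.2 + E B.1 - E B.2) / 2 := by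
    intro A B
    simp only [hE, lin, qc, e4, Equiv.coe_fn_symm_mk]
    rw [← Finset.sum_sub_distrib, ← Finset.sum_add_distrib, ← Finset.sum_sub_distrib,
      Finset.sum_div]
    exact Finset.sum_congr rfl fun j _ => by ring
  have hd : ∀ A B : (ι → Bool) × (ι → Bool),
      (∑ j, k j * qd ((e4 ι).symm (A, B) j)) = (-E A.1 + E A.2 + E B.1 - E B.2) / 2 := by
    intro A B
    simp only [hE, lin, qd, e4, Equiv.coe_fn_symm_mk]
    rw [← Finset.sum_neg_distrib, ← Finset.sum_add_distrib, ← Finset.sum_add_distrib,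
      ← Finset.sum_sub_distrib, Finset.sum_div]
    exact Finset.sum_congr rfl fun j _ => by ring
  have hb : ∀ A B : (ι → Bool) × (ι → Bool),
      qb ((e4 ι).symm (A, B) x) = (X A.1 + X A.2 - X B.1 - X B.2) / 2 := by
    intro A B
    simp only [hX, qb, e4, Equiv.coe_fn_symm_mk]
  simp only [hq_eq, hc, hd, hb] at hpos
  -- pair sums
  set F : (ι → Bool) × (ι → Bool) → ℝ := fun A => X A.1 + X A.2 with hF
  set G : (ι → Bool) × (ι → Bool) → ℝ := fun A => (E A.1 - E A.2) ^ 2 with hG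
  set W : (ι → Bool) × (ι → Bool) → ℝ := fun A => w A.1 * w A.2 with hW
  have hterm : ∀ A B : (ι → Bool) × (ι → Bool),
      (X A.1 + X A.2 - X B.1 - X B.2) / 2 * ((E A.1 - E A.2 + E B.1 - E B.2) / 2) *
        ((-E A.1 + E A.2 + E B.1 - E B.2) / 2) *
        Real.exp ((ham K h A.1 + ham K h A.2) + (ham K h B.1 + ham K h B.2)) =
      (1 / 8) * ((W A * F A) * (W B * G B) - (W A * (F A * G A)) * W B
        - W A * (W B * (F B * G B)) + (W A * G A) * (W B * F B)) := by
    intro A B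
    rw [Real.exp_add, Real.exp_add, Real.exp_add]
    simp only [hW, hF, hG, hw]
    ring
  simp only [hterm] at hpos
  have hsum : ∑ A : (ι → Bool) × (ι → Bool), ∑ B : (ι → Bool) × (ι → Bool),
      (1 / 8 : ℝ) * ((W A * F A) * (W B * G B) - (W A * (F A * G A)) * W B
        - W A * (W B * (F B * G B)) + (W A * G A) * (W B * F B)) =
      (1 / 8) * (2 * (∑ A, W A * F A) * (∑ A, W A * G A)
        - 2 * (∑ A, W A * (F A * G A)) * (∑ A, W A)) := by
    simp only [← Finset.mul_sum, Finset.sum_add_distrib, Finset.sum_sub_distrib,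
      ← Finset.sum_mul]
    ring
  rw [hsum] at hpos
  -- evaluate the pair sums
  have hpair : ∀ f g : (ι → Bool) → ℝ, ∑ A : (ι → Bool) × (ι → Bool), (w A.1 * f A.1) * (w A.2 * g A.2)
      = usum K h f * usum K h g := by
    intro f g
    rw [Fintype.sum_prod_type]
    simp only [← Finset.mul_sum, ← Finset.sum_mul]
    rfl
  have eW : ∑ A, W A = usum K h (fun _ => 1) ^ 2 := by
    have := hpair (fun _ => 1) (fun _ => 1)
    rw [sq, ← this]
    exact Finset.sum_congr rfl fun A _ => by simp only [hW]; ring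
  have eF : ∑ A, W A * F A = 2 * (usum K h X * usum K h (fun _ => 1)) := by
    have h1 := hpair X (fun _ => 1)
    have h2 := hpair (fun _ => 1) X
    have : ∑ A, W A * F A = ∑ A : (ι → Bool) × (ι → Bool), ((w A.1 * X A.1) * (w A.2 * 1) +
        (w A.1 * 1) * (w A.2 * X A.2)) :=
      Finset.sum_congr rfl fun A _ => by simp only [hW, hF]; ring
    rw [this, Finset.sum_add_distrib, h1, h2]; ring
  have eG : ∑ A, W A * G A = 2 * (usum K h (fun σ => E σ * E σ) * usum K h (fun _ => 1))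
      - 2 * usum K h E ^ 2 := by
    have h1 := hpair (fun σ => E σ * E σ) (fun _ => 1)
    have h2 := hpair (fun _ => 1) (fun σ => E σ * E σ)
    have h3 := hpair E E
    have : ∑ A, W A * G A = ∑ A : (ι → Bool) × (ι → Bool),
        ((w A.1 * (E A.1 * E A.1)) * (w A.2 * 1) + (w A.1 * 1) * (w A.2 * (E A.2 * E A.2))
          - 2 * ((w A.1 * E A.1) * (w A.2 * E A.2))) :=
      Finset.sum_congr rfl fun A _ => by simp only [hW, hG]; ring
    rw [this, Finset.sum_sub_distrib, Finset.sum_add_distrib, h1, h2, ← Finset.mul_sum, h3]; ring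
  have eFG : ∑ A, W A * (F A * G A) = 2 * (usum K h (fun σ => X σ * E σ * E σ)
      * usum K h (fun _ => 1)) - 4 * (usum K h (fun σ => X σ * E σ) * usum K h E)
      + 2 * (usum K h X * usum K h (fun σ => E σ * E σ)) := by
    have h1 := hpair (fun σ => X σ * E σ * E σ) (fun _ => 1)
    have h2 := hpair (fun _ => 1) (fun σ => X σ * E σ * E σ)
    have h3 := hpair (fun σ => X σ * E σ) E
    have h4 := hpair E (fun σ => X σ * E σ)
    have h5 := hpair X (fun σ => E σ * E σ)
    have h6 := hpair (fun σ => E σ * E σ) X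
    have : ∑ A, W A * (F A * G A) = ∑ A : (ι → Bool) × (ι → Bool),
        ((w A.1 * (X A.1 * E A.1 * E A.1)) * (w A.2 * 1)
          + (w A.1 * 1) * (w A.2 * (X A.2 * E A.2 * E A.2))
          - 2 * ((w A.1 * (X A.1 * E A.1)) * (w A.2 * E A.2))
          - 2 * ((w A.1 * E A.1) * (w A.2 * (X A.2 * E A.2)))
          + (w A.1 * X A.1) * (w A.2 * (E A.2 * E A.2))
          + (w A.1 * (E A.1 * E A.1)) * (w A.2 * X A.2)) :=
      Finset.sum_congr rfl fun A _ => by simp only [hW, hF, hG]; ring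
    rw [this, Finset.sum_add_distrib, Finset.sum_add_distrib, Finset.sum_sub_distrib,
      Finset.sum_sub_distrib, Finset.sum_add_distrib, ← Finset.mul_sum, ← Finset.mul_sum,
      h1, h2, h3, h4, h5, h6]
    ring
  rw [eW, eF, eG, eFG] at hpos
  have hZ := usum_one_pos K h
  set Z := usum K h (fun _ => 1)
  set SX := usum K h X
  set SE := usum K h E
  set SEE := usum K h (fun σ => E σ * E σ)
  set SXE := usum K h (fun σ => X σ * E σ)
  set SXEE := usum K h (fun σ => X σ * E σ * E σ)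
  have : 0 ≤ -(Z * (SXEE * Z ^ 2 - SX * SEE * Z - 2 * SXE * Z * SE + 2 * SX * SE ^ 2)) := by
    nlinarith [hpos]
  nlinarith [nonneg_of_mul_nonneg_right (by linarith : 0 ≤ Z * (-(SXEE * Z ^ 2 - SX * SEE * Z - 2 * SXE * Z * SE + 2 * SX * SE ^ 2))) hZ]

end Ghs

end Vale.Agent.P144
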