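import Vale.Agent.P144.Defs

namespace Vale.Agent.P144

abbrev Q4 : Type := (Bool × Bool) × (Bool × Bool)

noncomputable def qa (q : Q4) : ℝ := (spin q.1.1 + spin q.1.2 + spin q.2.1 + spin q.2.2) / 2
noncomputable def qb (q : Q4) : ℝ := (spin q.1.1 + spin q.1.2 - spin q.2.1 - spin q.2.2) / 2
noncomputable def qc (q : Q4) : ℝ := (spin q.1.1 - spin q.1.2 + spin q.2.1 - spin q.2.2) / 2
noncomputable def qd (q : Q4) : ℝ := (-spin q.1.1 + spin q.1.2 + spin q.2.1 - spin q.2.2) / 2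

theorem moment_nonneg (k l m n : ℕ) : 0 ≤ ∑ q : Q4, qa q ^ k * qb q ^ l * qc q ^ m * qd q ^ n := by
  have h1 : ∑ q : Q4, qa q ^ k * qb q ^ l * qc q ^ m * qd q ^ n =
     (2^k + (-2)^k) * 0^l * 0^m * 0^n + (2^l + (-2)^l) * 0^k * 0^m * 0^n +
      (2^m + (-2)^m) * 0^k*0^l*0^n
      + (2^n + (-2)^n) * 0^k * 0^l * 0^m +
      (1 + (-1)^(k+n)) * (1 + (-1)^(l+n)) * (1 + (-1)^(m+n)) := by
    have hz : ((-1:ℝ)^n) * ((-1)^n) = 1 := by
      rw [← mul_pow]; norm_num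
    simp only [Fintype.sum_prod_type, Fintype.sum_bool, qa, qb, qc, qd, spin, pow_add]
    norm_num
    linear_combination (-((-1:ℝ)^k*(-1)^l*(-1)^m*(-1)^n+(-1)^k*(-1)^l+(-1)^k*(-1)^m
      +(-1)^l*(-1)^m)) * hz
  rw [h1]
  have p2 : ∀ k : ℕ, (0:ℝ) ≤ 2^k + (-2)^k := by
    intro k
    rcases Nat.even_or_odd k with h | h
    · rw [h.neg_pow]; positivity
    · rw [h.neg_pow]; simp
  have p1 : ∀ k : ℕ, (0:ℝ) ≤ 1 + (-1)^k := by
    intro k
    rcases Nat.even_or_odd k with h | h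
    · rw [h.neg_pow]; positivity
    · rw [h.neg_pow]; simp
  have := p2 k; have := p2 l; have := p2 m; have := p2 n
  have := p1 (k+n); have := p1 (l+n); have := p1 (m+n)
  positivity

end Vale.Agent.P144
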