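import Vale.Agent.P144.Compare

set_option linter.unusedSectionVars false
set_option linter.unusedSimpArgs false

namespace Vale.Agent.P144

/-- `P` contains exactly one of `d, -d` for every displacement `d` of squared length `k`. -/
structure Half (k : ℤ) (P : Finset (ℤ × ℤ)) : Prop where
  iff : ∀ d : ℤ × ℤ, d.1 ^ 2 + d.2 ^ 2 = k ↔ d ∈ P ∨ -d ∈ P
  anti : ∀ d ∈ P, -d ∉ P

theorem half_one : Half 1 {(1, 0), (0, 1)} := by
  constructor
  · rintro ⟨a, b⟩
    simp only [Finset.mem_insert, Finset.mem_singleton, Prod.mk.injEq, Prod.neg_mk]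
    constructor
    · intro h
      have h1 : a ≤ 1 := by nlinarith [sq_nonneg b]
      have h2 : -1 ≤ a := by nlinarith [sq_nonneg b]
      have h3 : b ≤ 1 := by nlinarith [sq_nonneg a]
      have h4 : -1 ≤ b := by nlinarith [sq_nonneg a]
      interval_cases a <;> interval_cases b <;> simp_all
    · rintro ((⟨rfl, rfl⟩ | ⟨rfl, rfl⟩) | (⟨h1, h2⟩ | ⟨h1, h2⟩))
      · norm_num
      · norm_num
      · obtain rfl : a = -1 := by omega
        obtain rfl : b = 0 := by omega
        norm_num
      · obtain rfl : a = 0 := by omega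
        obtain rfl : b = -1 := by omega
        norm_num
  · decide

theorem half_two : Half 2 {(1, 1), (1, -1)} := by
  constructor
  · rintro ⟨a, b⟩
    simp only [Finset.mem_insert, Finset.mem_singleton, Prod.mk.injEq, Prod.neg_mk]
    constructor
    · intro h
      have h1 : a ≤ 1 := by nlinarith [sq_nonneg b]
      have h2 : -1 ≤ a := by nlinarith [sq_nonneg b]
      have h3 : b ≤ 1 := by nlinarith [sq_nonneg a]
      have h4 : -1 ≤ b := by nlinarith [sq_nonneg a]
      interval_cases a <;> interval_cases b <;> simp_all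
    · rintro ((⟨rfl, rfl⟩ | ⟨rfl, rfl⟩) | (⟨h1, h2⟩ | ⟨h1, h2⟩))
      · norm_num
      · norm_num
      · obtain rfl : a = -1 := by omega
        obtain rfl : b = -1 := by omega
        norm_num
      · obtain rfl : a = -1 := by omega
        obtain rfl : b = 1 := by omega
        norm_num
  · decide

theorem half_four : Half 4 {(2, 0), (0, 2)} := by
  constructor
  · rintro ⟨a, b⟩
    simp only [Finset.mem_insert, Finset.mem_singleton, Prod.mk.injEq, Prod.neg_mk]
    constructor
    · intro h
      have h1 : a ≤ 2 := by nlinarith [sq_nonneg b]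
      have h2 : -2 ≤ a := by nlinarith [sq_nonneg b]
      have h3 : b ≤ 2 := by nlinarith [sq_nonneg a]
      have h4 : -2 ≤ b := by nlinarith [sq_nonneg a]
      interval_cases a <;> interval_cases b <;> simp_all
    · rintro ((⟨rfl, rfl⟩ | ⟨rfl, rfl⟩) | (⟨h1, h2⟩ | ⟨h1, h2⟩))
      · norm_num
      · norm_num
      · obtain rfl : a = -2 := by omega
        obtain rfl : b = 0 := by omega
        norm_num
      · obtain rfl : a = 0 := by omega
        obtain rfl : b = -2 := by omega
        norm_num
  · decide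

/-- index set for pairs meeting `Λ` -/
def idx (Λ P : Finset (ℤ × ℤ)) : Finset ((ℤ × ℤ) × (ℤ × ℤ)) :=
  (Λ ×ˢ P) ∪ ((Λ ×ˢ P).filter fun p => p.1 - p.2 ∉ Λ).image fun p => (p.1 - p.2, p.2)

def toPair (p : (ℤ × ℤ) × (ℤ × ℤ)) : Finset (ℤ × ℤ) := {p.1, p.1 + p.2}

theorem pair_eq_cases {u v u' v' : ℤ × ℤ} (h : ({u, v} : Finset (ℤ × ℤ)) = {u', v'}) :
    (u = u' ∧ v = v') ∨ (u = v' ∧ v = u') := by
  have h' : ({u, v} : Set (ℤ × ℤ)) = {u', v'} := by
    have := congrArg (fun s : Finset (ℤ × ℤ) => (s : Set (ℤ × ℤ))) h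
    simpa using this
  exact Set.pair_eq_pair_iff.1 h'

theorem toPair_inj {k : ℤ} {P : Finset (ℤ × ℤ)} (hP : Half k P) {p q : (ℤ × ℤ) × (ℤ × ℤ)}
    (hp : p.2 ∈ P) (hq : q.2 ∈ P) (h : toPair p = toPair q) : p = q := by
  rcases pair_eq_cases h with ⟨h1, h2⟩ | ⟨h1, h2⟩
  · rw [h1] at h2
    exact Prod.ext h1 (add_left_cancel h2)
  · exfalso
    have : p.2 = -q.2 := by
      have h3 : q.1 + q.2 + p.2 = q.1 := by rw [← h1, h2]
      have h4 : q.2 + p.2 = 0 := by
        have : q.1 + (q.2 + p.2) = q.1 + 0 := by rw [← add_assoc, h3, add_zero]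
        exact add_left_cancel this
      exact (neg_eq_of_add_eq_zero_right h4).symm
    apply hP.anti _ hq
    rw [← this]; exact hp

theorem pairset_eq {k : ℤ} {P : Finset (ℤ × ℤ)} (hP : Half k P) (Λ : Finset (ℤ × ℤ)) :
    ({A : Finset (ℤ × ℤ) | (A ∩ Λ).Nonempty} ∩ {A | IsPair k A}) =
      ↑((idx Λ P).image toPair) := by
  ext A
  simp only [Set.mem_inter_iff, Set.mem_setOf_eq, Finset.coe_image, Set.mem_image, Finset.mem_coe]
  constructor
  · rintro ⟨hA, u, v, huv, rfl⟩
    -- reduce to A = {u, u + d}
    have key : ∀ u v : ℤ × ℤ, v - u ∈ P → (({u, v} : Finset (ℤ × ℤ)) ∩ Λ).Nonempty →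
        ∃ x, x ∈ idx Λ P ∧ toPair x = {u, v} := by
      intro u v hd hne
      by_cases hu : u ∈ Λ
      · refine ⟨(u, v - u), ?_, ?_⟩
        · exact Finset.mem_union_left _ (Finset.mem_product.2 ⟨hu, hd⟩)
        · simp [toPair]
      · have hv : v ∈ Λ := by
          obtain ⟨w, hw⟩ := hne
          simp only [Finset.mem_inter, Finset.mem_insert, Finset.mem_singleton] at hw
          rcases hw.1 with rfl | rfl
          · exact absurd hw.2 hu
          · exact hw.2
        refine ⟨(u, v - u), ?_, ?_⟩
        · apply Finset.mem_union_right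
          apply Finset.mem_image.2
          refine ⟨(v, v - u), ?_, ?_⟩
          · simp [hv, hd, hu]
          · simp
        · simp [toPair]
    have h2 := (hP.iff (v - u)).1 (by
      simp only [Prod.fst_sub, Prod.snd_sub]
      rw [← huv]; ring)
    rcases h2 with h2 | h2
    · exact key u v h2 hA
    · rw [neg_sub] at h2
      rw [Finset.pair_comm]
      rw [Finset.pair_comm] at hA
      exact key v u h2 hA
  · rintro ⟨⟨u, d⟩, hx, rfl⟩
    have hd : d ∈ P := by
      rcases Finset.mem_union.1 hx with h | h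
      · exact (Finset.mem_product.1 h).2
      · obtain ⟨⟨y, e⟩, hy, hye⟩ := Finset.mem_image.1 h
        simp only [Prod.mk.injEq] at hye
        rw [← hye.2]
        exact (Finset.mem_product.1 (Finset.mem_filter.1 hy).1).2
    constructor
    · rcases Finset.mem_union.1 hx with h | h
      · exact ⟨u, by simp [toPair, (Finset.mem_product.1 h).1]⟩
      · obtain ⟨⟨y, e⟩, hy, hye⟩ := Finset.mem_image.1 h
        simp only [Prod.mk.injEq] at hye
        refine ⟨y, ?_⟩
        have hyΛ := (Finset.mem_product.1 (Finset.mem_filter.1 hy).1).1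
        simp only [toPair, Finset.mem_inter, Finset.mem_insert, Finset.mem_singleton]
        refine ⟨Or.inr ?_, hyΛ⟩
        rw [← hye.1, ← hye.2]; simp
    · refine ⟨u, u + d, ?_, rfl⟩
      have := (hP.iff d).2 (Or.inl hd)
      simp only [Prod.fst_add, Prod.snd_add]
      rw [← this]; ring

theorem finsum_pairs {k : ℤ} {P : Finset (ℤ × ℤ)} (hP : Half k P) (Λ : Finset (ℤ × ℤ))
    (σ : Config) :
    ∑ᶠ A ∈ ({A : Finset (ℤ × ℤ) | (A ∩ Λ).Nonempty} ∩ {A | IsPair k A}), spinProd A σ =
      ∑ x ∈ Λ, ∑ d ∈ P, (spin (σ x) * spin (σ (x + d)) +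
        if x - d ∈ Λ then 0 else spin (σ x) * spin (σ (x - d))) := by
  have hP0 : ∀ d ∈ P, d ≠ 0 := by
    intro d hd h
    apply hP.anti d hd
    rw [h, neg_zero, ← h]; exact hd
  rw [pairset_eq hP, finsum_mem_coe_finset, Finset.sum_image]
  · unfold idx
    rw [Finset.sum_union]
    · rw [Finset.sum_image]
      · rw [Finset.sum_filter, ← Finset.sum_add_distrib, Finset.sum_product]
        refine Finset.sum_congr rfl fun x _ => Finset.sum_congr rfl fun d hd => ?_
        have hd0 := hP0 d hd
        have h1 : spinProd (toPair (x, d)) σ = spin (σ x) * spin (σ (x + d)) := by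
          unfold spinProd toPair
          rw [Finset.prod_pair]
          intro h
          apply hd0
          simpa using h.symm
        have h2 : spinProd (toPair (x - d, d)) σ = spin (σ x) * spin (σ (x - d)) := by
          unfold spinProd toPair
          rw [Finset.prod_pair]
          · simp [mul_comm]
          · intro h
            apply hd0
            have h' : x - d = x := by simpa using h
            exact sub_eq_self.1 h'
        simp only [h1, h2]
        by_cases h3 : x - d ∈ Λ <;> simp [h3]
      · intro p hp q hq h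
        simp only [Prod.mk.injEq] at h
        refine Prod.ext ?_ h.2
        have := h.1
        rw [h.2] at this
        exact sub_left_injective this
    · rw [Finset.disjoint_left]
      intro p hp hq
      obtain ⟨q, hq1, hq2⟩ := Finset.mem_image.1 hq
      have h1 := (Finset.mem_filter.1 hq1).2
      apply h1
      rw [← hq2] at hp
      exact (Finset.mem_product.1 hp).1
  · intro p hp q hq h
    have mem : ∀ p ∈ idx Λ P, p.2 ∈ P := by
      intro p hp
      rcases Finset.mem_union.1 hp with h | h
      · exact (Finset.mem_product.1 h).2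
      · obtain ⟨⟨y, e⟩, hy, hye⟩ := Finset.mem_image.1 h
        rw [← hye]
        exact (Finset.mem_product.1 (Finset.mem_filter.1 hy).1).2
    exact toPair_inj hP (mem p hp) (mem q hq) h

end Vale.Agent.P144
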