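import Vale.Agent.P144.Final

set_option linter.unusedSectionVars false
set_option linter.unusedSimpArgs false

namespace Vale.Agent.P144

/-- squared distance -/
def sqd (u v : ℤ × ℤ) : ℤ := (u.1 - v.1) ^ 2 + (u.2 - v.2) ^ 2

theorem isPair_image_of {k : ℤ} {A : Finset (ℤ × ℤ)} {f : ℤ × ℤ → ℤ × ℤ}
    (hf : ∀ u v, sqd (f u) (f v) = sqd u v) (h : IsPair k A) : IsPair k (A.image f) := by
  obtain ⟨u, v, h1, rfl⟩ := h
  refine ⟨f u, f v, ?_, ?_⟩
  · have := hf u v
    unfold sqd at this
    rw [this, h1]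
  · rw [Finset.image_insert, Finset.image_singleton]

theorem isPair_image {k : ℤ} {A : Finset (ℤ × ℤ)} {f g : ℤ × ℤ → ℤ × ℤ}
    (hf : ∀ u v, sqd (f u) (f v) = sqd u v) (hg : ∀ u v, sqd (g u) (g v) = sqd u v)
    (hgf : ∀ u, g (f u) = u) : IsPair k (A.image f) ↔ IsPair k A := by
  constructor
  · intro h
    have := isPair_image_of hg h
    rw [Finset.image_image] at this
    have e : (g ∘ f) = id := funext hgf
    rwa [e, Finset.image_id] at this
  · exact isPair_image_of hf

theorem vstar_image {A : Finset (ℤ × ℤ)} {f g : ℤ × ℤ → ℤ × ℤ}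
    (hf : ∀ u v, sqd (f u) (f v) = sqd u v) (hg : ∀ u v, sqd (g u) (g v) = sqd u v)
    (hgf : ∀ u, g (f u) = u) : Vstar (A.image f) = Vstar A := by
  have h4 := isPair_image (k := 4) (A := A) hf hg hgf
  have h2 := isPair_image (k := 2) (A := A) hf hg hgf
  unfold Vstar
  rw [h4, h2]

theorem isPair_of_vstar {A : Finset (ℤ × ℤ)} (h : Vstar A ≠ 0) :
    ∃ u v : ℤ × ℤ, (sqd u v = 4 ∨ sqd u v = 2) ∧ A = {u, v} := by
  unfold Vstar at h
  by_cases h4 : IsPair 4 A
  · obtain ⟨u, v, h1, h2⟩ := h4
    exact ⟨u, v, Or.inl h1, h2⟩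
  · by_cases h2 : IsPair 2 A
    · obtain ⟨u, v, h1, h2⟩ := h2
      exact ⟨u, v, Or.inr h1, h2⟩
    · simp [h4, h2] at h

theorem isPotential_vstar : IsPotential Vstar where
  nonempty_even := by
    intro A hA
    obtain ⟨u, v, h, rfl⟩ := isPair_of_vstar hA
    refine ⟨⟨u, by simp⟩, ?_⟩
    have hne : u ≠ v := by
      rintro rfl
      rcases h with h | h <;> simp [sqd] at h
    rw [Finset.card_pair hne]
    decide
  finite_range := by
    refine ⟨2, ?_⟩
    intro A hA x hx y hy
    obtain ⟨u, v, h, rfl⟩ := isPair_of_vstar hA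
    have hle : sqd x y ≤ 4 := by
      simp only [Finset.mem_insert, Finset.mem_singleton] at hx hy
      have hsym : sqd v u = sqd u v := by unfold sqd; ring
      have hself : ∀ z, sqd z z = 0 := by intro z; unfold sqd; ring
      rcases hx with rfl | rfl <;> rcases hy with rfl | rfl
      · rw [hself]; norm_num
      · rcases h with h | h <;> omega
      · rw [hsym]; rcases h with h | h <;> omega
      · rw [hself]; norm_num
    apply Real.sqrt_le_iff.2
    refine ⟨by norm_num, ?_⟩
    unfold sqd at hle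
    have : (((x.1 - y.1) ^ 2 + (x.2 - y.2) ^ 2 : ℤ) : ℝ) ≤ 4 := by exact_mod_cast hle
    push_cast at this ⊢
    linarith
  translation := by
    intro A w
    refine vstar_image (g := fun x => x - w) ?_ ?_ ?_
    · intro u v; unfold sqd; simp
    · intro u v; unfold sqd; simp
    · intro u; simp
  rotation := by
    intro A
    refine vstar_image (g := fun x => (x.2, -x.1)) ?_ ?_ ?_
    · intro u v; unfold sqd; simp only; ring
    · intro u v; unfold sqd; simp only; ring
    · intro u; simp
  reflection := by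
    intro A
    refine vstar_image (g := fun x => (-x.1, x.2)) ?_ ?_ ?_
    · intro u v; unfold sqd; simp only; ring
    · intro u v; unfold sqd; simp only; ring
    · intro u; simp

end Vale.Agent.P144
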