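import Vale.Agent.P144.Fkg

set_option linter.unusedSectionVars false

namespace Vale.Agent.P144

section Transfer
variable {ι : Type*} [Fintype ι] [DecidableEq ι]

theorem lin_single (u : ι) (c : ℝ) (σ : ι → Bool) :
    lin (fun i => if i = u then c else 0) σ = c * spin (σ u) := by
  unfold lin
  simp [ite_mul]

theorem ham_add_single (K : ι → ι → ℝ) (h : ι → ℝ) (u : ι) (c : ℝ) (σ : ι → Bool) :
    ham K (fun i => h i + if i = u then c else 0) σ = ham K h σ + c * spin (σ u) := by
  have := ham_add K h (fun i => if i = u then c else 0) 1 σ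
  rw [lin_single] at this
  simpa using this

theorem abs_loc_le {K : ι → ι → ℝ} (hK : ∀ i j, 0 ≤ K i j) (s : ι) (σ : ι → Bool) :
    |loc K s σ| ≤ ∑ j, (K s j + K j s) := by
  unfold loc
  calc |∑ j ∈ Finset.univ.erase s, (K s j + K j s) * spin (σ j)|
      ≤ ∑ j ∈ Finset.univ.erase s, |(K s j + K j s) * spin (σ j)| :=
        Finset.abs_sum_le_sum_abs _ _
    _ ≤ ∑ j ∈ Finset.univ.erase s, (K s j + K j s) := by
        refine Finset.sum_le_sum fun j _ => ?_
        have h1 : 0 ≤ K s j + K j s := add_nonneg (hK _ _) (hK _ _)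
        have h2 : |spin (σ j)| ≤ 1 := abs_le.2 ⟨neg_one_le_spin _, spin_le_one _⟩
        rw [abs_mul, abs_of_nonneg h1]
        nlinarith
    _ ≤ ∑ j, (K s j + K j s) := by
        apply Finset.sum_le_sum_of_subset_of_nonneg (Finset.erase_subset _ _)
        exact fun j _ _ => add_nonneg (hK _ _) (hK _ _)

theorem loc_mono {K : ι → ι → ℝ} (hK : ∀ i j, 0 ≤ K i j) {s u : ι} (hsu : u ≠ s)
    {a b : ι → Bool} (hab : a ≤ b) :
    (K s u + K u s) * (spin (b u) - spin (a u)) ≤ loc K s b - loc K s a := by
  unfold loc
  rw [← Finset.sum_sub_distrib]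
  have h1 : ∀ j ∈ Finset.univ.erase s, 0 ≤ (K s j + K j s) * spin (b j) - (K s j + K j s) * spin (a j) := by
    intro j _
    rw [← mul_sub]
    exact mul_nonneg (add_nonneg (hK _ _) (hK _ _)) (sub_nonneg.2 (spin_mono (hab j)))
  have h2 := Finset.single_le_sum h1 (Finset.mem_erase.2 ⟨hsu, Finset.mem_univ u⟩)
  rw [mul_sub]
  exact h2

/-- Moving a small field from `u` to a neighbour `s` of `u` increases the magnetisation. -/
theorem mag_transfer {K : ι → ι → ℝ} (hK : ∀ i j, 0 ≤ K i j) {h : ι → ℝ} {s u x : ι}
    (hsu : u ≠ s) (hxs : x ≠ s) {κ D B c : ℝ} (hκ : κ ≤ K s u + K u s) (hκ0 : 0 ≤ κ)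
    (hD : 0 ≤ D) (hB : |h s| + D + ∑ j, (K s j + K j s) ≤ B)
    (hc : Real.exp (2 * c) ≤ 1 + Real.sinh D * Real.sinh (2 * κ) / Real.cosh B ^ 2) :
    mag K (fun i => h i + if i = u then c else 0) x ≤
      mag K (fun i => h i + if i = s then D else 0) x := by
  set hu : ι → ℝ := fun i => h i + if i = u then c else 0 with hhu
  have hus : hu s = h s := by simp [hhu, Ne.symm hsu]
  set L : (ι → Bool) → ℝ := loc K s with hL
  set ρ : (ι → Bool) → ℝ := fun σ =>
    Real.cosh (h s + D + L σ) / Real.cosh (h s + L σ) * Real.exp (-(c * spin (σ u))) with hρ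
  have hLabs : ∀ σ, |L σ| ≤ ∑ j, (K s j + K j s) := fun σ => abs_loc_le hK s σ
  -- pairing identity
  have pair : ∀ (f : (ι → Bool) → ℝ), (∀ σ, f (flip s σ) = f σ) →
      usum K (fun i => h i + if i = s then D else 0) f = usum K hu (fun σ => f σ * ρ σ) := by
    intro f hf
    unfold usum
    apply sum_eq_of_flip s
    intro σ
    have a1 : ham K (fun i => h i + if i = s then D else 0) σ = ham K h σ + D * spin (σ s) :=
      ham_add_single K h s D σ
    have a2 : ham K (fun i => h i + if i = s then D else 0) (flip s σ) =
        ham K h (flip s σ) + D * spin (flip s σ s) := ham_add_single K h s D _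
    have a3 : ham K hu σ = ham K h σ + c * spin (σ u) := ham_add_single K h u c σ
    have a4 : ham K hu (flip s σ) = ham K h (flip s σ) + c * spin (σ u) := by
      rw [hhu, ham_add_single K h u c (flip s σ), flip_ne hsu]
    have a5 := ham_flip K h s σ
    have a6 : spin (flip s σ s) = -spin (σ s) := by simp [flip, spin_not]
    have a7 : ρ (flip s σ) = ρ σ := by
      simp only [hρ, hL, loc_flip, flip_ne hsu]
    rw [a1, a2, a3, a4, a5, a6]
    beta_reduce
    rw [a7, hf σ]
    simp only [hρ]
    set Hb := ham K h σ
    have hcosh : Real.cosh (h s + L σ) ≠ 0 := (Real.cosh_pos _).ne'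
    have hL' : loc K s σ = L σ := rfl
    rw [hL']
    have e1 : Real.exp (Hb + c * spin (σ u)) = Real.exp Hb * Real.exp (c * spin (σ u)) :=
      Real.exp_add _ _
    have e2 : Real.exp (Hb - 2 * (spin (σ s) * (h s + L σ)) + c * spin (σ u)) =
        Real.exp (Hb - 2 * (spin (σ s) * (h s + L σ))) * Real.exp (c * spin (σ u)) :=
      Real.exp_add _ _
    have e3 : Real.exp (c * spin (σ u)) * Real.exp (-(c * spin (σ u))) = 1 := by
      rw [← Real.exp_add]; simp
    rw [e1, e2]
    have key : Real.exp (Hb + D * spin (σ s)) +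
        Real.exp (Hb - 2 * (spin (σ s) * (h s + L σ)) + D * -spin (σ s)) =
        (Real.exp Hb + Real.exp (Hb - 2 * (spin (σ s) * (h s + L σ)))) *
          (Real.cosh (h s + D + L σ) / Real.cosh (h s + L σ)) := by
      have c1 : Real.exp Hb + Real.exp (Hb - 2 * (spin (σ s) * (h s + L σ))) =
          Real.exp (Hb - spin (σ s) * (h s + L σ)) * (2 * Real.cosh (h s + L σ)) := by
        rw [Real.cosh_eq]
        have : 2 * ((Real.exp (h s + L σ) + Real.exp (-(h s + L σ))) / 2) =
          Real.exp (h s + L σ) + Real.exp (-(h s + L σ)) := by ring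
        rw [this, mul_add (Real.exp (Hb - spin (σ s) * (h s + L σ))), ← Real.exp_add,
          ← Real.exp_add]
        cases hsσ : σ s
        · simp only [spin]
          norm_num
          rw [add_comm]
          congr 1 <;> congr 1 <;> ring
        · simp only [spin]
          norm_num
          congr 1 <;> ring
      have c2 : Real.exp (Hb + D * spin (σ s)) +
          Real.exp (Hb - 2 * (spin (σ s) * (h s + L σ)) + D * -spin (σ s)) =
          Real.exp (Hb - spin (σ s) * (h s + L σ)) * (2 * Real.cosh (h s + D + L σ)) := by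
        rw [Real.cosh_eq]
        have : 2 * ((Real.exp (h s + D + L σ) + Real.exp (-(h s + D + L σ))) / 2) =
          Real.exp (h s + D + L σ) + Real.exp (-(h s + D + L σ)) := by ring
        rw [this, mul_add (Real.exp (Hb - spin (σ s) * (h s + L σ))), ← Real.exp_add,
          ← Real.exp_add]
        cases hsσ : σ s
        · simp only [spin]
          norm_num
          rw [add_comm]
          congr 1 <;> congr 1 <;> ring
        · simp only [spin]
          norm_num
          congr 1 <;> congr 1 <;> ring
      rw [c1, c2]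
      field_simp
    calc Real.exp (Hb + D * spin (σ s)) * f σ +
          Real.exp (Hb - 2 * (spin (σ s) * (h s + L σ)) + D * -spin (σ s)) * f σ
        = (Real.exp (Hb + D * spin (σ s)) +
          Real.exp (Hb - 2 * (spin (σ s) * (h s + L σ)) + D * -spin (σ s))) * f σ := by ring
      _ = (Real.exp Hb + Real.exp (Hb - 2 * (spin (σ s) * (h s + L σ)))) *
          (Real.cosh (h s + D + L σ) / Real.cosh (h s + L σ)) * f σ *
          (Real.exp (c * spin (σ u)) * Real.exp (-(c * spin (σ u)))) := by rw [key, e3, mul_one]
      _ = _ := by ring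
  apply mag_le_of_rho hK hu _ x ρ
  · intro σ
    simp only [hρ]
    have := Real.cosh_pos (h s + D + L σ)
    have := Real.cosh_pos (h s + L σ)
    positivity
  · -- monotonicity
    intro a b hab
    simp only [hρ]
    have hLab := loc_mono hK hsu hab
    have hca := Real.cosh_pos (h s + L a)
    have hcb := Real.cosh_pos (h s + L b)
    have hD' : 0 ≤ Real.sinh D := Real.sinh_nonneg_iff.2 hD
    have id := cosh_ident (h s) D (L a) (L b)
    have hB0 : 0 ≤ B := by
      have := abs_nonneg (h s)
      have h3 : 0 ≤ ∑ j, (K s j + K j s) := Finset.sum_nonneg fun j _ => add_nonneg (hK _ _) (hK _ _)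
      linarith
    by_cases hu' : a u = b u
    · -- same value at u
      rw [hu'] at hLab ⊢
      simp only [sub_self, mul_zero] at hLab
      have hs : 0 ≤ Real.sinh (L b - L a) := Real.sinh_nonneg_iff.2 hLab
      apply mul_le_mul_of_nonneg_right _ (Real.exp_pos _).le
      rw [div_le_div_iff₀ hca hcb]
      nlinarith [mul_nonneg hD' hs]
    · have hau : a u = false := by
        cases h1 : a u
        · rfl
        · exfalso; apply hu'; have := hab u; rw [h1] at this ⊢; exact (le_antisymm this le_top)
      have hbu : b u = true := by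
        cases h1 : b u
        · exfalso; apply hu'; rw [hau, h1]
        · rfl
      rw [hau, hbu] at hLab ⊢
      have hsp : spin true - spin false = 2 := by norm_num [spin]
      rw [hsp] at hLab
      have hst : spin true = 1 := by norm_num [spin]
      have hsf : spin false = -1 := by norm_num [spin]
      rw [hst, hsf]
      have hLab' : 2 * κ ≤ L b - L a := by nlinarith
      have hs : Real.sinh (2 * κ) ≤ Real.sinh (L b - L a) := Real.sinh_le_sinh.2 hLab'
      have hs0 : 0 ≤ Real.sinh (2 * κ) := Real.sinh_nonneg_iff.2 (by linarith)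
      have b1 : Real.cosh (h s + L b) ≤ Real.cosh B := by
        rw [Real.cosh_le_cosh, abs_of_nonneg hB0]
        have := abs_add_le (h s) (L b)
        have := hLabs b
        linarith
      have b2 : Real.cosh (h s + D + L a) ≤ Real.cosh B := by
        rw [Real.cosh_le_cosh, abs_of_nonneg hB0]
        have := abs_add_le (h s + D) (L a)
        have := abs_add_le (h s) D
        have := hLabs a
        rw [abs_of_nonneg hD] at *
        linarith
      have hBpos := Real.cosh_pos B
      have hDa := Real.cosh_pos (h s + D + L a)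
      -- exp 2c bound
      have main : Real.exp (2 * c) * (Real.cosh (h s + L b) * Real.cosh (h s + D + L a)) ≤
          Real.cosh (h s + D + L b) * Real.cosh (h s + L a) := by
        have m1 : Real.exp (2 * c) * (Real.cosh (h s + L b) * Real.cosh (h s + D + L a)) ≤
            (1 + Real.sinh D * Real.sinh (2 * κ) / Real.cosh B ^ 2) *
              (Real.cosh (h s + L b) * Real.cosh (h s + D + L a)) :=
          mul_le_mul_of_nonneg_right hc (by positivity)
        have m2 : Real.sinh D * Real.sinh (2 * κ) / Real.cosh B ^ 2 *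
              (Real.cosh (h s + L b) * Real.cosh (h s + D + L a)) ≤
              Real.sinh D * Real.sinh (2 * κ) := by
          have : Real.cosh (h s + L b) * Real.cosh (h s + D + L a) ≤ Real.cosh B ^ 2 := by
            rw [sq]; exact mul_le_mul b1 b2 hDa.le hBpos.le
          calc Real.sinh D * Real.sinh (2 * κ) / Real.cosh B ^ 2 *
              (Real.cosh (h s + L b) * Real.cosh (h s + D + L a))
              ≤ Real.sinh D * Real.sinh (2 * κ) / Real.cosh B ^ 2 * Real.cosh B ^ 2 :=
                mul_le_mul_of_nonneg_left this (by positivity)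
            _ = Real.sinh D * Real.sinh (2 * κ) := by field_simp
        have m3 : Real.sinh D * Real.sinh (2 * κ) ≤ Real.sinh D * Real.sinh (L b - L a) :=
          mul_le_mul_of_nonneg_left hs hD'
        nlinarith
      have ex : Real.exp (-(c * -1)) = Real.exp (2 * c) * Real.exp (-(c * 1)) := by
        rw [← Real.exp_add]; congr 1; ring
      rw [ex]
      have : Real.cosh (h s + D + L a) / Real.cosh (h s + L a) * Real.exp (2 * c) ≤
          Real.cosh (h s + D + L b) / Real.cosh (h s + L b) := by
        rw [div_mul_eq_mul_div, div_le_div_iff₀ hca hcb]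
        nlinarith
      calc Real.cosh (h s + D + L a) / Real.cosh (h s + L a) * (Real.exp (2 * c) * Real.exp (-(c * 1)))
          = (Real.cosh (h s + D + L a) / Real.cosh (h s + L a) * Real.exp (2 * c)) *
            Real.exp (-(c * 1)) := by ring
        _ ≤ _ := mul_le_mul_of_nonneg_right this (Real.exp_pos _).le
  · have := pair (fun _ => 1) (fun _ => rfl)
    simpa using this
  · exact pair (fun σ => spin (σ x)) (fun σ => by rw [flip_ne hxs])

end Transfer

end Vale.Agent.P144
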